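import Vale.Agent.P141.R2.H131.LocAmp
import Vale.Agent.P141.R2.H106.Main

/-!
# P141: the operator on locally structured functions with an amplitude
(the arguments of `H106.Comb` and `H106.Main` for the class `LA`)
-/

namespace Vale.Agent.P141.R2.H131

open MeasureTheory Set Filter Topology
open scoped ENNReal SchwartzMap
open Vale.Agent.P141.H97
open Vale.Agent.P141.R2.H106 (LS Rep dE wk n3 one_form FB TB fb_tb TT_lit op_form card_log)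

theorem la_wk (α₀ α₁ α₂ α₃ : ℝ) (h12 : α₁ ≠ α₂) (h13 : α₁ ≠ α₃) (h23 : α₂ ≠ α₃) {c : ℝ}
    (hc : 0 < c) : ∃ C : ℝ, 0 ≤ C ∧ ∀ κ ε R : ℝ, 0 ≤ κ → 0 < ε → ε < R → ∀ n : ℕ,
      ∀ E : Finset ℝ, E.Nonempty → E.card < 2 ^ n → ∀ h : ℝ → ℂ, LA κ c E h →
      ∀ g₁ g₂ g₃ : ℝ → ℂ, Nice g₁ → Nice g₂ → Nice g₃ →
        ‖∫ p, wk ε R α₀ α₁ α₂ α₃ h g₁ g₂ g₃ p‖ ≤ C * κ * (1 + n) * n3 g₁ g₂ g₃ := by
  obtain ⟨C, hC, H⟩ := la_form h12 h13 h23 α₀ hc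
  exact ⟨C, hC, fun κ ε R hκ hε hR n E hE hn h hh g₁ g₂ g₃ m₁ m₂ m₃ =>
    H κ ε R hκ hε hR n E hE hn h hh g₁ g₂ g₃ m₁ m₂ m₃⟩

/-- locally structured functions, no amplitude -/
theorem LS.la {κ c : ℝ} {E : Finset ℝ} {h : ℝ → ℂ} (hh : LS κ c E h) : LA κ c E h := by
  refine ⟨fun _ => 1, h, hh, fun _ => by simp, fun s _ _ => ?_, fun x => by simp⟩
  have : eVariationOn (fun _ : ℝ => (1 : ℂ)) s = 0 :=
    eVariationOn.constant_on (by rintro _ ⟨x, _, rfl⟩ _ ⟨y, _, rfl⟩; rfl)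
  rw [this]
  exact bot_le

/-- the four form bounds for locally structured functions -/
theorem fb_la {c : ℝ} (hc : 0 < c) : ∃ C : ℝ, 0 < C ∧ ∀ κ ε R : ℝ, 0 ≤ κ → 0 < ε → ε < R →
    ∀ n : ℕ, ∀ E : Finset ℝ, E.Nonempty → E.card < 2 ^ n → ∀ h : ℝ → ℂ, LA κ c E h →
      FB (C * κ * (1 + n)) ε R h := by
  obtain ⟨C₁, hC₁, H₁⟩ := la_wk 1 0 2 3 (by norm_num) (by norm_num) (by norm_num) hc
  obtain ⟨C₂, hC₂, H₂⟩ := la_wk 2 0 1 3 (by norm_num) (by norm_num) (by norm_num) hc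
  obtain ⟨C₃, hC₃, H₃⟩ := la_wk 3 0 1 2 (by norm_num) (by norm_num) (by norm_num) hc
  obtain ⟨C₄, hC₄, H₄⟩ := la_wk 0 1 2 3 (by norm_num) (by norm_num) (by norm_num) hc
  refine ⟨C₁ + C₂ + C₃ + C₄ + 1, by positivity, ?_⟩
  intro κ ε R hκ hε hR n E hE hn h hh g₁ g₂ g₃ n₁ n₂ n₃
  have hn3 : 0 ≤ n3 g₁ g₂ g₃ := by unfold n3; positivity
  have up : ∀ C, 0 ≤ C → C ≤ C₁ + C₂ + C₃ + C₄ + 1 → ∀ X, X ≤ C * κ * (1 + n) * n3 g₁ g₂ g₃ →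
      X ≤ (C₁ + C₂ + C₃ + C₄ + 1) * κ * (1 + n) * n3 g₁ g₂ g₃ := by
    intro C _ hC X hX
    refine hX.trans ?_
    gcongr
  exact ⟨up C₁ hC₁ (by linarith) _ (H₁ κ ε R hκ hε hR n E hE hn h hh g₁ g₂ g₃ n₁ n₂ n₃),
    up C₂ hC₂ (by linarith) _ (H₂ κ ε R hκ hε hR n E hE hn h hh g₁ g₂ g₃ n₁ n₂ n₃),
    up C₃ hC₃ (by linarith) _ (H₃ κ ε R hκ hε hR n E hE hn h hh g₁ g₂ g₃ n₁ n₂ n₃),
    up C₄ hC₄ (by linarith) _ (H₄ κ ε R hκ hε hR n E hE hn h hh g₁ g₂ g₃ n₁ n₂ n₃)⟩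

/-- all truncations, in three slots, and the pairing -/
theorem la_tb {c : ℝ} (hc : 0 < c) : ∃ C : ℝ, 0 < C ∧ ∀ κ ε R : ℝ, 0 ≤ κ → 0 < ε → ε < R →
    ∀ E : Finset ℝ, E.Nonempty → ∀ h : ℝ → ℂ, LA κ c E h →
      TB (C * κ * (1 + Real.log E.card)) ε R h := by
  obtain ⟨C, hC, H⟩ := fb_la hc
  refine ⟨C * 2, by positivity, ?_⟩
  intro κ ε R hκ hε hR E hE h hh
  obtain ⟨n, hn, hn'⟩ := card_log E hE
  have h1 : 0 ≤ Real.log E.card := Real.log_natCast_nonneg _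
  have h2 := H κ ε R hκ hε hR n E hE hn h hh
  refine fb_tb (by positivity) hε hh.good.1 hh.good.2 fun g₁ g₂ g₃ n₁ n₂ n₃ => ?_
  have hn3 : 0 ≤ n3 g₁ g₂ g₃ := by unfold n3; positivity
  have h3 : C * κ * (1 + n) * n3 g₁ g₂ g₃ ≤
      C * 2 * κ * (1 + Real.log E.card) * n3 g₁ g₂ g₃ := by
    have : C * κ * (1 + n) ≤ C * 2 * κ * (1 + Real.log E.card) := by
      calc C * κ * (1 + n) ≤ C * κ * (2 * (1 + Real.log E.card)) := by gcongr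
        _ = _ := by ring
    gcongr
  obtain ⟨a1, a2, a3, a4⟩ := h2 g₁ g₂ g₃ n₁ n₂ n₃
  exact ⟨a1.trans h3, a2.trans h3, a3.trans h3, a4.trans h3⟩

/-- all truncations, general slopes (the slope of the structured function is arbitrary) -/
theorem la_slopes {c : ℝ} (hc : 0 < c) {β₀ β₁ β₂ : ℝ} (h1 : β₁ ≠ 0) (h2 : β₂ ≠ 0)
    (h12 : β₁ ≠ β₂) : ∃ C : ℝ, 0 < C ∧ ∀ κ ε R : ℝ, 0 ≤ κ → 0 < ε → ε < R →
    ∀ E : Finset ℝ, E.Nonempty → ∀ h : ℝ → ℂ, LA κ c E h → ∀ f g : ℝ → ℂ, Nice f → Nice g →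
      eLpNorm (fun x => ∫ t in {t : ℝ | ε < |t| ∧ |t| < R},
        f (x - β₁ * t) * g (x - β₂ * t) * h (x - β₀ * t) / (t : ℂ)) (3 / 2) volume ≤
      ENNReal.ofReal (C * κ * (1 + Real.log E.card)) * (eLpNorm f 3 volume *
        eLpNorm g 3 volume) := by
  obtain ⟨C, hC, H⟩ := la_wk β₀ 0 β₁ β₂ h1.symm h2.symm h12 hc
  refine ⟨(C + 1) * 2, by positivity, ?_⟩
  intro κ ε R hκ hε hR E hE h hh f g nf ng
  obtain ⟨n, hn, hn'⟩ := card_log E hE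
  have hl : 0 ≤ Real.log E.card := Real.log_natCast_nonneg _
  rw [← TT_lit]
  refine op_form (by positivity) hε hh.good.1 hh.good.2 (fun g₁ g₂ g₃ n₁ n₂ n₃ => ?_) nf ng
  refine (H κ ε R hκ hε hR n E hE hn h hh g₁ g₂ g₃ n₁ n₂ n₃).trans ?_
  have hn3 : 0 ≤ n3 g₁ g₂ g₃ := by unfold n3; positivity
  have : C * κ * (1 + n) ≤ (C + 1) * 2 * κ * (1 + Real.log E.card) := by
    calc C * κ * (1 + n) ≤ (C + 1) * κ * (2 * (1 + Real.log E.card)) := by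
          gcongr
          linarith
      _ = _ := by ring
  gcongr

/-- the operator itself -/
theorem la_tht {c : ℝ} (hc : 0 < c) : ∃ C : ℝ, 0 < C ∧ ∀ κ : ℝ, 0 ≤ κ →
    ∀ E : Finset ℝ, E.Nonempty → ∀ h : ℝ → ℂ, LA κ c E h → (∀ᵐ x, DifferentiableAt ℝ h x) →
    ∀ f g : 𝓢(ℝ, ℂ),
      ((∀ᵐ x, Tendsto (fun q : ℝ × ℝ => truncTHT h f g q.1 q.2 x)
        (𝓝[>] (0 : ℝ) ×ˢ atTop) (𝓝 (THT h f g x))) ∧
       (∀ᵐ x, Tendsto (fun q : ℝ × ℝ => truncTHT f h g q.1 q.2 x)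
        (𝓝[>] (0 : ℝ) ×ˢ atTop) (𝓝 (THT f h g x))) ∧
       (∀ᵐ x, Tendsto (fun q : ℝ × ℝ => truncTHT f g h q.1 q.2 x)
        (𝓝[>] (0 : ℝ) ×ˢ atTop) (𝓝 (THT f g h x)))) ∧
      eLpNorm (THT h f g) (3 / 2) volume ≤ ENNReal.ofReal (C * κ * (1 + Real.log E.card)) *
        (eLpNorm f 3 volume * eLpNorm g 3 volume) ∧
      eLpNorm (THT f h g) (3 / 2) volume ≤ ENNReal.ofReal (C * κ * (1 + Real.log E.card)) *
        (eLpNorm f 3 volume * eLpNorm g 3 volume) ∧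
      eLpNorm (THT f g h) (3 / 2) volume ≤ ENNReal.ofReal (C * κ * (1 + Real.log E.card)) *
        (eLpNorm f 3 volume * eLpNorm g 3 volume) := by
  obtain ⟨C, hC, H⟩ := la_tb hc
  refine ⟨C, hC, fun κ hκ E hE h hh hd f g => ?_⟩
  have nf := H115.nice_schwartz f
  have ng := H115.nice_schwartz g
  have hb : ∃ B, ∀ x, ‖h x‖ ≤ B := ⟨κ, hh.good.2⟩
  have l1 : ∀ᵐ x, Tendsto (fun q : ℝ × ℝ => truncTHT h f g q.1 q.2 x)
        (𝓝[>] (0 : ℝ) ×ˢ atTop) (𝓝 (THT h f g x)) := by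
    filter_upwards [hd] with x hx
    exact H106.lim_exists hh.good.1 nf.meas ng.meas (H106.pr_int hh.good.1 nf.meas ng.meas hb nf.bdd ng.bdd
      (Or.inr nf.int) x) hx f.differentiableAt g.differentiableAt
  have l2 : ∀ᵐ x, Tendsto (fun q : ℝ × ℝ => truncTHT f h g q.1 q.2 x)
        (𝓝[>] (0 : ℝ) ×ˢ atTop) (𝓝 (THT f h g x)) := by
    filter_upwards [hd] with x hx
    exact H106.lim_exists nf.meas hh.good.1 ng.meas (H106.pr_int nf.meas hh.good.1 ng.meas nf.bdd hb ng.bdd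
      (Or.inl nf.int) x) f.differentiableAt hx g.differentiableAt
  have l3 : ∀ᵐ x, Tendsto (fun q : ℝ × ℝ => truncTHT f g h q.1 q.2 x)
        (𝓝[>] (0 : ℝ) ×ˢ atTop) (𝓝 (THT f g h x)) := by
    filter_upwards [hd] with x hx
    exact H106.lim_exists nf.meas ng.meas hh.good.1 (H106.pr_int nf.meas ng.meas hh.good.1 nf.bdd ng.bdd hb
      (Or.inl nf.int) x) f.differentiableAt g.differentiableAt hx
  refine ⟨⟨l1, l2, l3⟩, ?_, ?_, ?_⟩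
  · exact H106.tht_le hh.good.1 nf.meas ng.meas l1 fun ε R hε hR =>
      (H κ ε R hκ hε hR E hE h hh f g nf ng).1
  · exact H106.tht_le nf.meas hh.good.1 ng.meas l2 fun ε R hε hR =>
      (H κ ε R hκ hε hR E hE h hh f g nf ng).2.1
  · exact H106.tht_le nf.meas ng.meas hh.good.1 l3 fun ε R hε hR =>
      (H κ ε R hκ hε hR E hE h hh f g nf ng).2.2.1

/-- an amplitude is differentiable almost everywhere -/
theorem pv_diff {E : Finset ℝ} {v : ℝ → ℂ} (hv : PV1 E v) : ∀ᵐ x : ℝ, DifferentiableAt ℝ v x := by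
  have h1 : ∀ᵐ x : ℝ, ∀ p q : ℚ, (∀ e ∈ E, e ∉ uIcc (p : ℝ) q) → x ∈ uIcc (p : ℝ) q →
      DifferentiableAt ℝ v x := by
    rw [ae_all_iff]
    intro p
    rw [ae_all_iff]
    intro q
    by_cases h : ∀ e ∈ E, e ∉ uIcc (p : ℝ) q
    · have hb : BoundedVariationOn v (uIcc (p : ℝ) q) :=
        ne_top_of_le_ne_top ENNReal.one_ne_top (hv _ ordConnected_uIcc h)
      filter_upwards [hb.ae_differentiableAt_of_mem_uIcc] with x hx _ using hx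
    · exact ae_of_all _ fun x hx => absurd hx h
  have h2 : ∀ᵐ x : ℝ, x ∉ (E : Set ℝ) :=
    measure_eq_zero_iff_ae_notMem.1 (E.finite_toSet.measure_zero _)
  filter_upwards [h1, h2] with x hx1 hx2
  have hn : (E : Set ℝ)ᶜ ∈ 𝓝 x := E.finite_toSet.isClosed.isOpen_compl.mem_nhds hx2
  obtain ⟨a, b, hab, hsub⟩ := mem_nhds_iff_exists_Ioo_subset.1 hn
  obtain ⟨p, hp1, hp2⟩ := exists_rat_btwn hab.1
  obtain ⟨q, hq1, hq2⟩ := exists_rat_btwn hab.2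
  have hpq : (p : ℝ) ≤ q := (hp2.trans hq1).le
  refine hx1 p q (fun e he hc => ?_) ?_
  · rw [uIcc_of_le hpq] at hc
    exact hsub ⟨hp1.trans_le hc.1, hc.2.trans_lt hq2⟩ he
  · rw [uIcc_of_le hpq]
    exact ⟨hp2.le, hq1.le⟩

/-- the product with an amplitude is differentiable almost everywhere -/
theorem amp_diff {E : Finset ℝ} {v g h : ℝ → ℂ} (hv : PV1 E v)
    (hg : ∀ᵐ x : ℝ, DifferentiableAt ℝ g x) (e : ∀ x, h x = v x * g x) :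
    ∀ᵐ x : ℝ, DifferentiableAt ℝ h x := by
  have : h = fun x => v x * g x := funext e
  rw [this]
  filter_upwards [pv_diff hv, hg] with x h1 h2
  exact h1.mul h2

end Vale.Agent.P141.R2.H131
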