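import Vale.Agent.P141.R2.H131.FormPieces

/-!
# P141: a monotone amplitude times a quadratic phase
-/

namespace Vale.Agent.P141.R2.H131

open MeasureTheory Set Filter Topology
open scoped ENNReal
open Vale.Agent.P141.H97 (bk bk_meas bk_int Nice)
open Vale.Agent.P141.R2.H152 (FormBd)

variable {ε R b₁ b₂ b₃ b A : ℝ} {g₁ g₂ g₃ h : ℝ → ℂ}

theorem layer {w : ℝ} (h0 : 0 ≤ w) (h1 : w ≤ 1) :
    ∫ l in Ioc (0 : ℝ) 1, (if l < w then (1 : ℂ) else 0) = (w : ℂ) := by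
  have e : (fun l : ℝ => (if l < w then (1 : ℂ) else 0)) = (Iio w).indicator fun _ => (1 : ℂ) := by
    funext l
    by_cases h : l < w
    · rw [if_pos h, indicator_of_mem (show l ∈ Iio w from h)]
    · rw [if_neg h, indicator_of_notMem (show l ∉ Iio w from h)]
  rw [e, setIntegral_indicator measurableSet_Iio, setIntegral_const]
  have e2 : volume.real (Ioc (0 : ℝ) 1 ∩ Iio w) = w := by
    have e3 : Ioc (0 : ℝ) 1 ∩ Iio w = Ioo 0 w := by
      ext l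
      simp only [mem_inter_iff, mem_Ioc, mem_Iio, mem_Ioo]
      constructor
      · rintro ⟨⟨a, _⟩, c⟩; exact ⟨a, c⟩
      · rintro ⟨a, c⟩; exact ⟨⟨a, by linarith⟩, c⟩
    rw [e3, Real.volume_real_Ioo_of_le h0, sub_zero]
  rw [e2]
  simp

/-- integration over the levels of the amplitude -/
theorem levels (hε : 0 < ε) (n₁ : Nice g₁) (n₂ : Nice g₂) (n₃ : Nice g₃) (hm : Measurable h)
    (hh : ∀ x, ‖h x‖ ≤ 1) {w : ℝ → ℝ} (wm : Measurable w) (w0 : ∀ x, 0 ≤ w x)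
    (w1 : ∀ x, w x ≤ 1) {M : ℝ}
    (H : ∀ l : ℝ, ‖Q ε R b₁ b₂ b₃ b g₁ g₂ g₃ ({x | l < w x}.indicator h)‖ ≤ M) :
    ‖Q ε R b₁ b₂ b₃ b g₁ g₂ g₃ (fun x => (w x : ℂ) * h x)‖ ≤ M := by
  have hI := Q_int (R := R) (b₁ := b₁) (b₂ := b₂) (b₃ := b₃) (b := b) hε n₁ n₂ n₃ hm hh
  set K : ℝ × ℝ → ℂ := fun p => bk ε R b₁ b₂ b₃ g₁ g₂ g₃ p * h (p.1 - b * p.2) with hK
  set ν : Measure ℝ := volume.restrict (Ioc (0 : ℝ) 1) with hν
  have e : Q ε R b₁ b₂ b₃ b g₁ g₂ g₃ (fun x => (w x : ℂ) * h x) =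
      ∫ p : ℝ × ℝ, ∫ l, K p * (if l < w (p.1 - b * p.2) then (1 : ℂ) else 0) ∂ν := by
    unfold Q
    refine integral_congr_ae (ae_of_all _ fun p => ?_)
    simp only
    rw [integral_const_mul, hν, layer (w0 _) (w1 _), hK]
    ring
  have hint : Integrable (fun z : (ℝ × ℝ) × ℝ =>
      K z.1 * (if z.2 < w (z.1.1 - b * z.1.2) then (1 : ℂ) else 0))
      ((volume : Measure (ℝ × ℝ)).prod ν) := by
    refine (hI.comp_fst ν).mul_bdd (c := 1) ?_ (ae_of_all _ fun z => ?_)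
    · refine (Measurable.ite ?_ measurable_const measurable_const).aestronglyMeasurable
      exact measurableSet_lt measurable_snd (wm.comp (by fun_prop))
    · split_ifs <;> simp
  rw [e, integral_integral_swap hint]
  have hl : ∀ l : ℝ, ‖∫ p : ℝ × ℝ, K p * (if l < w (p.1 - b * p.2) then (1 : ℂ) else 0)‖ ≤ M := by
    intro l
    refine le_trans (le_of_eq ?_) (H l)
    unfold Q
    congr 1
    refine integral_congr_ae (ae_of_all _ fun p => ?_)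
    simp only [hK]
    by_cases hp : l < w (p.1 - b * p.2)
    · rw [if_pos hp, indicator_of_mem (show p.1 - b * p.2 ∈ {x | l < w x} from hp), mul_one]
    · rw [if_neg hp, indicator_of_notMem (show p.1 - b * p.2 ∉ {x | l < w x} from hp),
        mul_zero, mul_zero]
  have := norm_setIntegral_le_of_norm_le_const (μ := (volume : Measure ℝ)) (s := Ioc (0 : ℝ) 1)
    (f := fun l => ∫ p : ℝ × ℝ, K p * (if l < w (p.1 - b * p.2) then (1 : ℂ) else 0))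
    (C := M) (by simp) fun l _ => hl l
  refine this.trans (le_of_eq ?_)
  simp

/-- an upper or lower set of the line has one end point -/
theorem exists_end' {S : Set ℝ} (hS : ∀ u v : ℝ, u ≤ v → u ∈ S → v ∈ S) :
    ∃ s : ℝ, ∀ u v : ℝ, |u - v| < |v - s| → (u ∈ S ↔ v ∈ S) := by
  obtain ⟨s, hs⟩ := exists_end (S := Sᶜ) fun u v huv hv hu => hv (hS u v huv hu)
  refine ⟨s, fun u v huv => ?_⟩
  have := hs u v huv
  simp only [mem_compl_iff] at this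
  exact not_iff_not.1 this

/-- **a monotone amplitude times a quadratic phase** -/
theorem amp (h12 : b₁ ≠ b₂) (h13 : b₁ ≠ b₃) (h23 : b₂ ≠ b₃) (b : ℝ) :
    ∃ C : ℝ, 0 ≤ C ∧ ∀ (u : ℝ → ℝ), (Monotone u ∨ Antitone u) → (∀ x, |u x| ≤ 1) →
      ∀ (c : ℂ) (α β : ℝ), ‖c‖ ≤ 1 → ∀ ε R : ℝ, 0 < ε → ε < R →
        QB C ε R b₁ b₂ b₃ b (fun x => (u x : ℂ) * ph c α β x) := by
  obtain ⟨C₀, hC₀, H₀⟩ := Q_leaf h12 h13 h23 b
  obtain ⟨C₁, hC₁, H₁⟩ := cut_le h12 h13 h23 b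
  refine ⟨3 * (C₀ + C₁), by positivity, fun u hu hu1 c α β hc ε R hε hR g₁ g₂ g₃ n₁ n₂ n₃ => ?_⟩
  have um : Measurable u := by
    rcases hu with h | h
    · exact h.measurable
    · exact h.measurable
  set w : ℝ → ℝ := fun x => (u x + 1) / 2 with hw
  have wm : Measurable w := (um.add_const 1).div_const 2
  have w0 : ∀ x, 0 ≤ w x := fun x => by
    have := abs_le.1 (hu1 x)
    simp only [hw]; linarith [this.1]
  have w1 : ∀ x, w x ≤ 1 := fun x => by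
    have := abs_le.1 (hu1 x)
    simp only [hw]; linarith [this.2]
  set P' := N3 g₁ * N3 g₂ * N3 g₃ with hP'
  have hP0 : 0 ≤ P' := mul_nonneg (mul_nonneg (N3_nonneg _) (N3_nonneg _)) (N3_nonneg _)
  have hphm := ph_meas c α β
  have hph1 : ∀ x, ‖ph c α β x‖ ≤ 1 := fun x => by rw [norm_ph]; exact hc
  have mono3 : ∀ S : Set ℝ, MeasurableSet S →
      N3 (S.indicator g₁) * N3 (S.indicator g₂) * N3 (S.indicator g₃) ≤ P' := by
    intro S hS
    have le : ∀ g : ℝ → ℂ, Nice g → N3 (S.indicator g) ≤ N3 g := by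
      intro g hg
      unfold N3
      exact ENNReal.toReal_mono (hg.memLp (by norm_num) (by norm_num)).2.ne
        (eLpNorm_indicator_le _)
    exact mul_le_mul (mul_le_mul (le _ n₁) (le _ n₂) (N3_nonneg _) (N3_nonneg _)) (le _ n₃)
      (N3_nonneg _) (mul_nonneg (N3_nonneg _) (N3_nonneg _))
  have lev : ∀ l : ℝ, ‖Q ε R b₁ b₂ b₃ b g₁ g₂ g₃ ({x | l < w x}.indicator (ph c α β))‖ ≤
      (C₀ + C₁) * P' := by
    intro l
    set S : Set ℝ := {x | l < w x} with hS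
    have hSm : MeasurableSet S := measurableSet_lt measurable_const wm
    obtain ⟨s, hs⟩ : ∃ s : ℝ, ∀ u v : ℝ, |u - v| < |v - s| → (u ∈ S ↔ v ∈ S) := by
      rcases hu with h | h
      · refine exists_end' fun x y hxy hx => ?_
        have h2 : l < w x := hx
        have h3 := h hxy
        show l < w y
        simp only [hw] at h2 ⊢
        linarith
      · refine exists_end fun x y hxy hx => ?_
        have h2 : l < w y := hx
        have h3 := h hxy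
        show l < w x
        simp only [hw] at h2 ⊢
        linarith
    have k₁ := H₁ s S hSm hs _ hphm hph1 g₁ g₂ g₃ n₁ n₂ n₃ ε R hε
    have k₂ := H₀ c α β hc _ _ _ (nice_ind n₁ hSm) (nice_ind n₂ hSm) (nice_ind n₃ hSm) ε R hε hR
    have k₃ := norm_sub_norm_le (Q ε R b₁ b₂ b₃ b g₁ g₂ g₃ (S.indicator (ph c α β)))
      (Q ε R b₁ b₂ b₃ b (S.indicator g₁) (S.indicator g₂) (S.indicator g₃) (ph c α β))
    have k₄ := mul_le_mul_of_nonneg_left (mono3 S hSm) hC₀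
    linarith
  have main := levels (R := R) (b₁ := b₁) (b₂ := b₂) (b₃ := b₃) (b := b) hε n₁ n₂ n₃ hphm hph1
    wm w0 w1 lev
  have base := H₀ c α β hc g₁ g₂ g₃ n₁ n₂ n₃ ε R hε hR
  have e : Q ε R b₁ b₂ b₃ b g₁ g₂ g₃ (fun x => (u x : ℂ) * ph c α β x) =
      2 * Q ε R b₁ b₂ b₃ b g₁ g₂ g₃ (fun x => (w x : ℂ) * ph c α β x) -
        Q ε R b₁ b₂ b₃ b g₁ g₂ g₃ (ph c α β) := by
    have I1 := Q_int (R := R) (b₁ := b₁) (b₂ := b₂) (b₃ := b₃) (b := b) hε n₁ n₂ n₃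
      (h := fun x => (w x : ℂ) * ph c α β x)
      ((Complex.measurable_ofReal.comp wm).mul hphm) (B := 1) fun x => by
        rw [norm_mul, Complex.norm_real, Real.norm_of_nonneg (w0 x)]
        exact mul_le_one₀ (w1 x) (norm_nonneg _) (hph1 x)
    have I2 := Q_int (R := R) (b₁ := b₁) (b₂ := b₂) (b₃ := b₃) (b := b) hε n₁ n₂ n₃ hphm hph1
    unfold Q
    rw [← integral_const_mul, ← integral_sub (I1.const_mul 2) I2]
    refine integral_congr_ae (ae_of_all _ fun p => ?_)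
    simp only [hw]
    push_cast
    ring
  rw [e]
  calc ‖2 * Q ε R b₁ b₂ b₃ b g₁ g₂ g₃ (fun x => (w x : ℂ) * ph c α β x) -
        Q ε R b₁ b₂ b₃ b g₁ g₂ g₃ (ph c α β)‖
      ≤ ‖2 * Q ε R b₁ b₂ b₃ b g₁ g₂ g₃ (fun x => (w x : ℂ) * ph c α β x)‖ +
        ‖Q ε R b₁ b₂ b₃ b g₁ g₂ g₃ (ph c α β)‖ := norm_sub_le _ _
    _ ≤ 2 * ((C₀ + C₁) * P') + C₀ * P' := by
        rw [norm_mul]
        have : ‖(2 : ℂ)‖ = 2 := by norm_num
        rw [this]
        linarith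
    _ ≤ 3 * (C₀ + C₁) * P' := by nlinarith

theorem amp_form {c₁ c₂ c₃ : ℝ} (h12 : c₁ ≠ c₂) (h13 : c₁ ≠ c₃) (h23 : c₂ ≠ c₃) :
    ∃ C : ℝ, 0 ≤ C ∧ ∀ (u : ℝ → ℝ), (Monotone u ∨ Antitone u) → (∀ x, |u x| ≤ 1) →
      ∀ (c : ℂ) (α β : ℝ), ‖c‖ ≤ 1 → ∀ ε R : ℝ, 0 < ε → ε < R →
        FormBd (fun x => (u x : ℂ) * ph c α β x) C ε R c₁ c₂ c₃ := by
  obtain ⟨C, hC, H⟩ := amp h12 h13 h23 0
  exact ⟨C, hC, fun u hu hu1 c α β hc ε R hε hR => QB_iff.1 (H u hu hu1 c α β hc ε R hε hR)⟩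

end Vale.Agent.P141.R2.H131
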