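import Vale.Agent.P141.R2.H131.Amp

/-!
# P141: an amplitude of bounded variation in front of a function with a form bound
-/

namespace Vale.Agent.P141.R2.H131

open MeasureTheory Set Filter Topology
open scoped ENNReal
open Vale.Agent.P141.H97 (bk bk_meas bk_int Nice)

variable {ε R b₁ b₂ b₃ b : ℝ}

theorem QB_mono {A A' : ℝ} {h : ℝ → ℂ} (hA : A ≤ A') (H : QB A ε R b₁ b₂ b₃ b h) :
    QB A' ε R b₁ b₂ b₃ b h := by
  intro g₁ g₂ g₃ n₁ n₂ n₃
  refine (H g₁ g₂ g₃ n₁ n₂ n₃).trans ?_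
  have : 0 ≤ N3 g₁ * N3 g₂ * N3 g₃ :=
    mul_nonneg (mul_nonneg (N3_nonneg _) (N3_nonneg _)) (N3_nonneg _)
  gcongr

theorem QB_smul {A : ℝ} {h : ℝ → ℂ} (c : ℂ) (H : QB A ε R b₁ b₂ b₃ b h) :
    QB (‖c‖ * A) ε R b₁ b₂ b₃ b (fun x => c * h x) := by
  intro g₁ g₂ g₃ n₁ n₂ n₃
  have e : Q ε R b₁ b₂ b₃ b g₁ g₂ g₃ (fun x => c * h x) = c * Q ε R b₁ b₂ b₃ b g₁ g₂ g₃ h := by
    unfold Q
    rw [← integral_const_mul]
    refine integral_congr_ae (ae_of_all _ fun p => ?_)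
    simp only
    ring
  rw [e, norm_mul, mul_assoc]
  exact mul_le_mul_of_nonneg_left (H g₁ g₂ g₃ n₁ n₂ n₃) (norm_nonneg _)

theorem QB_add {A₁ A₂ B₁ B₂ : ℝ} {h₁ h₂ : ℝ → ℂ} (hε : 0 < ε) (m₁ : Measurable h₁)
    (m₂ : Measurable h₂) (hB₁ : ∀ x, ‖h₁ x‖ ≤ B₁) (hB₂ : ∀ x, ‖h₂ x‖ ≤ B₂)
    (H₁ : QB A₁ ε R b₁ b₂ b₃ b h₁) (H₂ : QB A₂ ε R b₁ b₂ b₃ b h₂) :
    QB (A₁ + A₂) ε R b₁ b₂ b₃ b (fun x => h₁ x + h₂ x) := by
  intro g₁ g₂ g₃ n₁ n₂ n₃
  have I1 := Q_int (R := R) (b₁ := b₁) (b₂ := b₂) (b₃ := b₃) (b := b) hε n₁ n₂ n₃ m₁ hB₁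
  have I2 := Q_int (R := R) (b₁ := b₁) (b₂ := b₂) (b₃ := b₃) (b := b) hε n₁ n₂ n₃ m₂ hB₂
  have e : Q ε R b₁ b₂ b₃ b g₁ g₂ g₃ (fun x => h₁ x + h₂ x) =
      Q ε R b₁ b₂ b₃ b g₁ g₂ g₃ h₁ + Q ε R b₁ b₂ b₃ b g₁ g₂ g₃ h₂ := by
    unfold Q
    rw [← integral_add I1 I2]
    refine integral_congr_ae (ae_of_all _ fun p => ?_)
    simp only
    ring
  rw [e, add_mul]
  exact (norm_add_le _ _).trans (add_le_add (H₁ g₁ g₂ g₃ n₁ n₂ n₃) (H₂ g₁ g₂ g₃ n₁ n₂ n₃))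

/-- **a monotone amplitude in front of any function with a form bound** -/
theorem mono_base (h12 : b₁ ≠ b₂) (h13 : b₁ ≠ b₃) (h23 : b₂ ≠ b₃) (b : ℝ) :
    ∃ C : ℝ, 0 ≤ C ∧ ∀ A ε R : ℝ, 0 ≤ A → 0 < ε → ∀ g : ℝ → ℂ, Measurable g →
      (∀ x, ‖g x‖ ≤ 1) → QB A ε R b₁ b₂ b₃ b g → ∀ u : ℝ → ℝ, Monotone u → (∀ x, |u x| ≤ 1) →
        QB (3 * (A + C)) ε R b₁ b₂ b₃ b (fun x => (u x : ℂ) * g x) := by
  obtain ⟨C₁, hC₁, H₁⟩ := cut_le h12 h13 h23 b
  refine ⟨C₁, hC₁, fun A ε R hA hε g gm g1 hg u hu hu1 g₁ g₂ g₃ n₁ n₂ n₃ => ?_⟩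
  have um : Measurable u := hu.measurable
  set w : ℝ → ℝ := fun x => (u x + 1) / 2 with hw
  have wm : Measurable w := (um.add_const 1).div_const 2
  have w0 : ∀ x, 0 ≤ w x := fun x => by
    have := abs_le.1 (hu1 x)
    simp only [hw]; linarith [this.1]
  have w1 : ∀ x, w x ≤ 1 := fun x => by
    have := abs_le.1 (hu1 x)
    simp only [hw]; linarith [this.2]
  set P' := N3 g₁ * N3 g₂ * N3 g₃ with hP'
  have hP0 : 0 ≤ P' := mul_nonneg (mul_nonneg (N3_nonneg _) (N3_nonneg _)) (N3_nonneg _)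
  have mono3 : ∀ S : Set ℝ, MeasurableSet S →
      N3 (S.indicator g₁) * N3 (S.indicator g₂) * N3 (S.indicator g₃) ≤ P' := by
    intro S hS
    have le : ∀ g : ℝ → ℂ, Nice g → N3 (S.indicator g) ≤ N3 g := by
      intro g hg
      unfold N3
      exact ENNReal.toReal_mono (hg.memLp (by norm_num) (by norm_num)).2.ne
        (eLpNorm_indicator_le _)
    exact mul_le_mul (mul_le_mul (le _ n₁) (le _ n₂) (N3_nonneg _) (N3_nonneg _)) (le _ n₃)
      (N3_nonneg _) (mul_nonneg (N3_nonneg _) (N3_nonneg _))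
  have lev : ∀ l : ℝ, ‖Q ε R b₁ b₂ b₃ b g₁ g₂ g₃ ({x | l < w x}.indicator g)‖ ≤
      (A + C₁) * P' := by
    intro l
    set S : Set ℝ := {x | l < w x} with hS
    have hSm : MeasurableSet S := measurableSet_lt measurable_const wm
    obtain ⟨s, hs⟩ : ∃ s : ℝ, ∀ u v : ℝ, |u - v| < |v - s| → (u ∈ S ↔ v ∈ S) := by
      refine exists_end' fun x y hxy hx => ?_
      have h2 : l < w x := hx
      have h3 := hu hxy
      show l < w y
      simp only [hw] at h2 ⊢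
      linarith
    have k₁ := H₁ s S hSm hs _ gm g1 g₁ g₂ g₃ n₁ n₂ n₃ ε R hε
    have k₂ := hg _ _ _ (nice_ind n₁ hSm) (nice_ind n₂ hSm) (nice_ind n₃ hSm)
    have k₃ := norm_sub_norm_le (Q ε R b₁ b₂ b₃ b g₁ g₂ g₃ (S.indicator g))
      (Q ε R b₁ b₂ b₃ b (S.indicator g₁) (S.indicator g₂) (S.indicator g₃) g)
    have k₄ := mul_le_mul_of_nonneg_left (mono3 S hSm) hA
    linarith
  have main := levels (R := R) (b₁ := b₁) (b₂ := b₂) (b₃ := b₃) (b := b) hε n₁ n₂ n₃ gm g1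
    wm w0 w1 lev
  have base := hg g₁ g₂ g₃ n₁ n₂ n₃
  have e : Q ε R b₁ b₂ b₃ b g₁ g₂ g₃ (fun x => (u x : ℂ) * g x) =
      2 * Q ε R b₁ b₂ b₃ b g₁ g₂ g₃ (fun x => (w x : ℂ) * g x) -
        Q ε R b₁ b₂ b₃ b g₁ g₂ g₃ g := by
    have I1 := Q_int (R := R) (b₁ := b₁) (b₂ := b₂) (b₃ := b₃) (b := b) hε n₁ n₂ n₃
      (h := fun x => (w x : ℂ) * g x)
      ((Complex.measurable_ofReal.comp wm).mul gm) (B := 1) fun x => by
        rw [norm_mul, Complex.norm_real, Real.norm_of_nonneg (w0 x)]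
        exact mul_le_one₀ (w1 x) (norm_nonneg _) (g1 x)
    have I2 := Q_int (R := R) (b₁ := b₁) (b₂ := b₂) (b₃ := b₃) (b := b) hε n₁ n₂ n₃ gm g1
    unfold Q
    rw [← integral_const_mul, ← integral_sub (I1.const_mul 2) I2]
    refine integral_congr_ae (ae_of_all _ fun p => ?_)
    simp only [hw]
    push_cast
    ring
  rw [e]
  calc ‖2 * Q ε R b₁ b₂ b₃ b g₁ g₂ g₃ (fun x => (w x : ℂ) * g x) -
        Q ε R b₁ b₂ b₃ b g₁ g₂ g₃ g‖
      ≤ ‖2 * Q ε R b₁ b₂ b₃ b g₁ g₂ g₃ (fun x => (w x : ℂ) * g x)‖ +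
        ‖Q ε R b₁ b₂ b₃ b g₁ g₂ g₃ g‖ := norm_sub_le _ _
    _ ≤ 2 * ((A + C₁) * P') + A * P' := by
        rw [norm_mul]
        have : ‖(2 : ℂ)‖ = 2 := by norm_num
        rw [this]
        linarith
    _ ≤ 3 * (A + C₁) * P' := by nlinarith [mul_nonneg hC₁ hP0]

/-- a bounded real function of bounded variation is a difference of monotone functions -/
theorem real_bv {r : ℝ → ℝ} (hr1 : ∀ x, |r x| ≤ 1) (hr : eVariationOn r univ ≤ 1) :
    ∃ p q : ℝ → ℝ, Monotone p ∧ Monotone q ∧ (∀ x, |p x| ≤ 1) ∧ (∀ x, |q x| ≤ 2) ∧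
      ∀ x, r x = p x - q x := by
  have hb : BoundedVariationOn r univ := ne_top_of_le_ne_top ENNReal.one_ne_top hr
  have hl := hb.locallyBoundedVariationOn
  have h1 : ∀ x, |variationOnFromTo r univ 0 x| ≤ 1 := fun x => by
    refine (variationOnFromTo.abs_le_eVariationOn hb).trans ?_
    exact ENNReal.toReal_le_of_le_ofReal zero_le_one (by simpa using hr)
  refine ⟨variationOnFromTo r univ 0, variationOnFromTo r univ 0 - r,
    monotoneOn_univ.1 (variationOnFromTo.monotoneOn hl (mem_univ 0)),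
    monotoneOn_univ.1 (variationOnFromTo.sub_self_monotoneOn hl (mem_univ 0)), h1,
    fun x => ?_, fun x => ?_⟩
  · rw [Pi.sub_apply]
    have := abs_sub (variationOnFromTo r univ 0 x) (r x)
    have h2 := h1 x
    have h3 := hr1 x
    linarith
  · rw [Pi.sub_apply]; ring

/-- real amplitudes of bounded variation -/
theorem bv_real (h12 : b₁ ≠ b₂) (h13 : b₁ ≠ b₃) (h23 : b₂ ≠ b₃) (b : ℝ) :
    ∃ C : ℝ, 0 ≤ C ∧ ∀ A ε R : ℝ, 0 ≤ A → 0 < ε → ∀ g : ℝ → ℂ, Measurable g →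
      (∀ x, ‖g x‖ ≤ 1) → QB A ε R b₁ b₂ b₃ b g → ∀ r : ℝ → ℝ, (∀ x, |r x| ≤ 1) →
        eVariationOn r univ ≤ 1 →
        QB (9 * (A + C)) ε R b₁ b₂ b₃ b (fun x => (r x : ℂ) * g x) := by
  obtain ⟨C, hC, H⟩ := mono_base h12 h13 h23 b
  refine ⟨C, hC, fun A ε R hA hε g gm g1 hg r hr1 hr => ?_⟩
  obtain ⟨p, q, pm, qm, p1, q1, e⟩ := real_bv hr1 hr
  have k₁ := H A ε R hA hε g gm g1 hg p pm p1
  have k₂ := H A ε R hA hε g gm g1 hg (fun x => q x / 2)
    (fun x y hxy => by have := qm hxy; simp only; linarith) (fun x => by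
      rw [abs_div, abs_of_pos (two_pos : (0 : ℝ) < 2)]; linarith [q1 x])
  have k₃ := QB_smul (-2 : ℂ) k₂
  have m₁ : Measurable fun x => (p x : ℂ) * g x :=
    (Complex.measurable_ofReal.comp pm.measurable).mul gm
  have m₂ : Measurable fun x => (-2 : ℂ) * (((q x / 2 : ℝ) : ℂ) * g x) :=
    measurable_const.mul ((Complex.measurable_ofReal.comp (qm.measurable.div_const 2)).mul gm)
  have k₄ := QB_add hε m₁ m₂ (B₁ := 1) (B₂ := 2) (fun x => by
      rw [norm_mul, Complex.norm_real, Real.norm_eq_abs]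
      exact mul_le_one₀ (p1 x) (norm_nonneg _) (g1 x)) (fun x => by
      rw [norm_mul, norm_mul, Complex.norm_real, Real.norm_eq_abs, abs_div,
        abs_of_pos (two_pos : (0 : ℝ) < 2)]
      have h1 : ‖(-2 : ℂ)‖ = 2 := by norm_num
      rw [h1]
      have h2 : |q x| / 2 * ‖g x‖ ≤ 1 := mul_le_one₀ (by linarith [q1 x]) (norm_nonneg _) (g1 x)
      linarith) k₁ k₃
  have e2 : (fun x => (r x : ℂ) * g x) =
      fun x => (p x : ℂ) * g x + (-2 : ℂ) * (((q x / 2 : ℝ) : ℂ) * g x) := by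
    funext x
    rw [e x]
    push_cast
    ring
  rw [e2]
  refine QB_mono ?_ k₄
  have h1 : ‖(-2 : ℂ)‖ = 2 := by norm_num
  rw [h1]
  linarith

/-- **amplitudes of bounded variation** -/
theorem bv_base (h12 : b₁ ≠ b₂) (h13 : b₁ ≠ b₃) (h23 : b₂ ≠ b₃) (b : ℝ) :
    ∃ C : ℝ, 0 ≤ C ∧ ∀ A ε R : ℝ, 0 ≤ A → 0 < ε → ∀ g : ℝ → ℂ, Measurable g →
      (∀ x, ‖g x‖ ≤ 1) → QB A ε R b₁ b₂ b₃ b g → ∀ v : ℝ → ℂ, (∀ x, ‖v x‖ ≤ 1) →
        eVariationOn v univ ≤ 1 →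
        QB (18 * (A + C)) ε R b₁ b₂ b₃ b (fun x => v x * g x) := by
  obtain ⟨C, hC, H⟩ := bv_real h12 h13 h23 b
  refine ⟨C, hC, fun A ε R hA hε g gm g1 hg v hv1 hv => ?_⟩
  have lip : ∀ f : ℂ → ℝ, LipschitzWith 1 f → eVariationOn (fun x => f (v x)) univ ≤ 1 := by
    intro f hf
    have := (hf.lipschitzOnWith (s := univ)).comp_eVariationOn_le (g := v) (s := univ)
      (fun x _ => mem_univ _)
    refine (le_trans this ?_)
    simpa using hv
  have hre := lip Complex.re (Complex.reCLM.lipschitz.weaken (by simp))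
  have him := lip Complex.im (Complex.imCLM.lipschitz.weaken (by simp))
  have k₁ := H A ε R hA hε g gm g1 hg (fun x => (v x).re)
    (fun x => (Complex.abs_re_le_norm _).trans (hv1 x)) hre
  have k₂ := H A ε R hA hε g gm g1 hg (fun x => (v x).im)
    (fun x => (Complex.abs_im_le_norm _).trans (hv1 x)) him
  have k₃ := QB_smul Complex.I k₂
  have bv : ∀ r : ℝ → ℝ, (∀ x, |r x| ≤ 1) → eVariationOn r univ ≤ 1 → Measurable r := by
    intro r h1 h2
    obtain ⟨p, q, pm, qm, -, -, e⟩ := real_bv h1 h2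
    have : r = fun x => p x - q x := funext e
    rw [this]
    exact pm.measurable.sub qm.measurable
  have rm := bv _ (fun x => (Complex.abs_re_le_norm _).trans (hv1 x)) hre
  have im := bv _ (fun x => (Complex.abs_im_le_norm _).trans (hv1 x)) him
  have k₄ := QB_add hε (h₁ := fun x => (((v x).re : ℝ) : ℂ) * g x)
    (h₂ := fun x => Complex.I * ((((v x).im : ℝ) : ℂ) * g x))
    ((Complex.measurable_ofReal.comp rm).mul gm)
    (measurable_const.mul ((Complex.measurable_ofReal.comp im).mul gm)) (B₁ := 1) (B₂ := 1)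
    (fun x => by
      rw [norm_mul, Complex.norm_real, Real.norm_eq_abs]
      exact mul_le_one₀ ((Complex.abs_re_le_norm _).trans (hv1 x)) (norm_nonneg _) (g1 x))
    (fun x => by
      rw [norm_mul, norm_mul, Complex.norm_I, one_mul, Complex.norm_real, Real.norm_eq_abs]
      exact mul_le_one₀ ((Complex.abs_im_le_norm _).trans (hv1 x)) (norm_nonneg _) (g1 x)) k₁ k₃
  have e2 : (fun x => v x * g x) = fun x => (((v x).re : ℝ) : ℂ) * g x +
      Complex.I * ((((v x).im : ℝ) : ℂ) * g x) := by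
    funext x
    conv_lhs => rw [← Complex.re_add_im (v x)]
    ring
  rw [e2]
  refine QB_mono ?_ k₄
  rw [Complex.norm_I]
  linarith

/-- a function of bounded variation is measurable -/
theorem bv_meas {v : ℝ → ℂ} (hv1 : ∀ x, ‖v x‖ ≤ 1) (hv : eVariationOn v univ ≤ 1) :
    Measurable v := by
  have lip : ∀ f : ℂ → ℝ, LipschitzWith 1 f → eVariationOn (fun x => f (v x)) univ ≤ 1 := by
    intro f hf
    have := (hf.lipschitzOnWith (s := univ)).comp_eVariationOn_le (g := v) (s := univ)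
      (fun x _ => mem_univ _)
    refine (le_trans this ?_)
    simpa using hv
  have hre := lip Complex.re (Complex.reCLM.lipschitz.weaken (by simp))
  have him := lip Complex.im (Complex.imCLM.lipschitz.weaken (by simp))
  have bv : ∀ r : ℝ → ℝ, (∀ x, |r x| ≤ 1) → eVariationOn r univ ≤ 1 → Measurable r := by
    intro r h1 h2
    obtain ⟨p, q, pm, qm, -, -, e⟩ := real_bv h1 h2
    have : r = fun x => p x - q x := funext e
    rw [this]
    exact pm.measurable.sub qm.measurable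
  have rm := bv _ (fun x => (Complex.abs_re_le_norm _).trans (hv1 x)) hre
  have im := bv _ (fun x => (Complex.abs_im_le_norm _).trans (hv1 x)) him
  have e2 : v = fun x => (((v x).re : ℝ) : ℂ) + (((v x).im : ℝ) : ℂ) * Complex.I :=
    funext fun x => (Complex.re_add_im (v x)).symm
  rw [e2]
  exact (Complex.measurable_ofReal.comp rm).add
    ((Complex.measurable_ofReal.comp im).mul measurable_const)

end Vale.Agent.P141.R2.H131
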