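import Vale.Agent.P141.R2.H131.Parts
import Vale.Agent.P141.R2.H152.Oper

/-!
# P141: gluing for the form bound of H152
-/

namespace Vale.Agent.P141.R2.H131

open MeasureTheory Set Filter Topology
open scoped ENNReal
open Vale.Agent.P141.H97 (bk bk_meas bk_int Nice)
open Vale.Agent.P141.R2.H152 (FormBd)

theorem bk_ph (ε R c₁ c₂ c₃ : ℝ) (f₁ f₂ f₃ : ℝ → ℂ) (p : ℝ × ℝ) :
    bk ε R c₁ c₂ c₃ f₁ f₂ f₃ p = H97.ph ε R c₁ c₂ c₃ f₁ f₂ f₃ p.1 p.2 := by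
  unfold bk H97.ph H97.FF H97.uu
  by_cases ht : ε < |p.2| ∧ |p.2| < R
  · rw [if_pos ht, indicator_of_mem (show p.2 ∈ {t : ℝ | ε < |t| ∧ |t| < R} from ht),
      div_eq_mul_inv]
    ring
  · rw [if_neg ht, indicator_of_notMem (show p.2 ∉ {t : ℝ | ε < |t| ∧ |t| < R} from ht),
      zero_mul]

theorem Q_zero (ε R c₁ c₂ c₃ : ℝ) (f₁ f₂ f₃ D : ℝ → ℂ) :
    Q ε R c₁ c₂ c₃ 0 f₁ f₂ f₃ D =
      ∫ p : ℝ × ℝ, D p.1 * H97.ph ε R c₁ c₂ c₃ f₁ f₂ f₃ p.1 p.2 := by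
  unfold Q
  refine integral_congr_ae (ae_of_all _ fun p => ?_)
  simp only
  rw [bk_ph, zero_mul, sub_zero, mul_comm]

theorem QB_iff {A ε R c₁ c₂ c₃ : ℝ} {D : ℝ → ℂ} :
    QB A ε R c₁ c₂ c₃ 0 D ↔ FormBd D A ε R c₁ c₂ c₃ := by
  unfold QB FormBd N3
  constructor
  · intro h f₁ f₂ f₃ n₁ n₂ n₃
    rw [← Q_zero]
    exact h f₁ f₂ f₃ n₁ n₂ n₃
  · intro h f₁ f₂ f₃ n₁ n₂ n₃
    rw [Q_zero]
    exact h f₁ f₂ f₃ n₁ n₂ n₃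

/-- **gluing along a partition into `2^n` consecutive intervals** -/
theorem pieces {c₁ c₂ c₃ : ℝ} (h12 : c₁ ≠ c₂) (h13 : c₁ ≠ c₃) (h23 : c₂ ≠ c₃) :
    ∃ B : ℝ, 0 ≤ B ∧ ∀ A ε R : ℝ, 0 ≤ A → 0 < ε → ε < R → ∀ (n : ℕ) (c : ℝ → ℕ)
      (P : ℕ → ℝ → ℂ), Monotone c → (∀ x, c x < 2 ^ n) → (∀ k, Measurable (P k)) →
      (∀ k x, ‖P k x‖ ≤ 1) → (∀ k, FormBd (P k) A ε R c₁ c₂ c₃) →
      FormBd (fun x => P (c x) x) (A + B * n) ε R c₁ c₂ c₃ := by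
  obtain ⟨B, hB, H⟩ := parts h12 h13 h23 0
  refine ⟨B, hB, fun A ε R hA hε _ n c P hc hlt hPm hP1 hPA => ?_⟩
  exact QB_iff.1 (H ε R hε A n c P hA hc hlt hPm hP1 fun k => QB_iff.2 (hPA k))

/-- quadratic phases are in the base class -/
theorem phase_form {c₁ c₂ c₃ : ℝ} (h12 : c₁ ≠ c₂) (h13 : c₁ ≠ c₃) (h23 : c₂ ≠ c₃) :
    ∃ C : ℝ, 0 ≤ C ∧ ∀ (c : ℂ) (α β : ℝ), ‖c‖ ≤ 1 → ∀ ε R : ℝ, 0 < ε → ε < R →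
      FormBd (ph c α β) C ε R c₁ c₂ c₃ := by
  obtain ⟨C, hC, H⟩ := Q_leaf h12 h13 h23 0
  exact ⟨C, hC, fun c α β hc ε R hε hR => QB_iff.1 fun g₁ g₂ g₃ n₁ n₂ n₃ =>
    H c α β hc g₁ g₂ g₃ n₁ n₂ n₃ ε R hε hR⟩

end Vale.Agent.P141.R2.H131
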