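import Vale.Agent.P141.H97.Nice

/-!
# P141: the Hardy type form
-/

namespace Vale.Agent.P141.R2.H131

open MeasureTheory Set Filter Topology
open scoped ENNReal

/-- `|w|^(-1/2)` on `[-3,3]` is integrable -/
theorem int_half : Integrable ((Icc (-3 : ℝ) 3).indicator fun w : ℝ => |w| ^ (-(1 / 2) : ℝ)) := by
  rw [integrable_indicator_iff measurableSet_Icc]
  have h1 : IntegrableOn (fun w : ℝ => |w| ^ (-(1 / 2) : ℝ)) (Icc 0 3) := by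
    have := (intervalIntegral.intervalIntegrable_rpow' (a := 0) (b := 3)
      (r := (-(1 / 2) : ℝ)) (by norm_num)).1
    rw [← integrableOn_Icc_iff_integrableOn_Ioc] at this
    refine this.congr_fun (fun x hx => ?_) measurableSet_Icc
    simp only [abs_of_nonneg hx.1]
  have h2 : IntegrableOn (fun w : ℝ => |w| ^ (-(1 / 2) : ℝ)) (Icc (-3) 0) := by
    have h3 := h1.comp_neg
    simp only [abs_neg] at h3
    refine h3.mono_set ?_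
    intro x hx
    simp only [Set.mem_neg, mem_Icc] at hx ⊢
    constructor <;> linarith [hx.1, hx.2]
  rw [← Icc_union_Icc_eq_Icc (a := (-3 : ℝ)) (b := 0) (c := 3) (by norm_num) (by norm_num)]
  exact h2.union h1

/-- `|τ|^(-3/2)` on `|τ| ≥ c` is integrable -/
theorem int_far {c : ℝ} (hc : 0 < c) :
    Integrable ({t : ℝ | c ≤ |t|}.indicator fun w : ℝ => |w| ^ (-(3 / 2) : ℝ)) := by
  have hm : MeasurableSet {t : ℝ | c ≤ |t|} := measurableSet_le measurable_const measurable_abs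
  rw [integrable_indicator_iff hm]
  have h1 : IntegrableOn (fun w : ℝ => |w| ^ (-(3 / 2) : ℝ)) (Ioi (c / 2)) := by
    have := integrableOn_Ioi_rpow_of_lt (a := (-(3 / 2) : ℝ)) (c := c / 2) (by norm_num)
      (by positivity)
    refine this.congr_fun (fun x hx => ?_) measurableSet_Ioi
    have : 0 < x := lt_trans (by positivity) hx
    simp only [abs_of_pos this]
  have h2 := h1.comp_neg
  simp only [abs_neg] at h2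
  refine (h1.union h2).mono_set ?_
  intro x hx
  rw [Set.mem_ofPred_eq] at hx
  simp only [mem_union, mem_Ioi, Set.mem_neg]
  rcases le_abs.1 hx with h | h
  · left; linarith
  · right; linarith

/-- the scale invariant constant -/
noncomputable def Kc (κ a c : ℝ) : ℝ≥0∞ :=
  ∫⁻ τ : ℝ, {τ : ℝ | κ * |1 + a * τ| ≤ |τ|}.indicator
    (fun τ => (‖1 + c * τ‖ₑ ^ (1 / 2 : ℝ))⁻¹ * ‖τ‖ₑ⁻¹) τ

theorem Kc_lt {κ a c : ℝ} (hκ : 0 < κ) (hc : c ≠ 0) : Kc κ a c < ∞ := by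
  set c0 : ℝ := κ / (1 + κ * |a|) with hc0
  have h1 : 0 < 1 + κ * |a| := by positivity
  have hc0' : 0 < c0 := by positivity
  set A : ℝ → ℝ := {t : ℝ | c0 ≤ |t|}.indicator fun w : ℝ => |w| ^ (-(3 / 2) : ℝ) with hA
  set B : ℝ → ℝ := (Icc (-3 : ℝ) 3).indicator fun w : ℝ => |w| ^ (-(1 / 2) : ℝ) with hB
  have iA : Integrable A := int_far hc0'
  have iB : Integrable fun τ : ℝ => B (1 + c * τ) :=
    ((int_half.comp_add_left 1).comp_mul_left' hc)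
  set G : ℝ → ℝ := fun τ => (2 / |c|) ^ (1 / 2 : ℝ) * A τ + c0⁻¹ * B (1 + c * τ) with hG
  have iG : Integrable G := (iA.const_mul _).add (iB.const_mul _)
  have hfin := iG.2
  rw [hasFiniteIntegral_iff_enorm] at hfin
  refine lt_of_le_of_lt ?_ hfin
  unfold Kc
  refine lintegral_mono_ae ?_
  have e1 : ∀ᵐ τ : ℝ, τ ≠ 0 := by rw [ae_iff]; simp
  have e2 : ∀ᵐ τ : ℝ, τ ≠ -1 / c := by rw [ae_iff]; simp
  filter_upwards [e1, e2] with τ ht0 ht1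
  by_cases hτ : κ * |1 + a * τ| ≤ |τ|
  · rw [indicator_of_mem (show τ ∈ {τ : ℝ | κ * |1 + a * τ| ≤ |τ|} from hτ)]
    have h2 : c0 ≤ |τ| := by
      rw [hc0, div_le_iff₀ h1]
      have h3 : 1 - |a| * |τ| ≤ |1 + a * τ| := by
        have := abs_sub_abs_le_abs_sub (1 : ℝ) (-(a * τ))
        rw [abs_neg, abs_mul, abs_one] at this
        simpa using this
      nlinarith
    have hne : 1 + c * τ ≠ 0 := by
      intro h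
      apply ht1
      field_simp
      linarith
    have hpos : 0 < |1 + c * τ| := abs_pos.2 hne
    have hτp : 0 < |τ| := abs_pos.2 ht0
    have e3 : (‖1 + c * τ‖ₑ ^ (1 / 2 : ℝ))⁻¹ * ‖τ‖ₑ⁻¹ =
        ENNReal.ofReal (|1 + c * τ| ^ (-(1 / 2) : ℝ) * |τ|⁻¹) := by
      rw [← ENNReal.rpow_neg, Real.enorm_eq_ofReal_abs, Real.enorm_eq_ofReal_abs,
        ENNReal.ofReal_rpow_of_pos hpos, ENNReal.ofReal_mul (by positivity),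
        ENNReal.ofReal_inv_of_pos hτp]
    rw [e3]
    refine (ENNReal.ofReal_le_ofReal ?_).trans (Real.ofReal_le_enorm _)
    have hA' : A τ = |τ| ^ (-(3 / 2) : ℝ) :=
      indicator_of_mem (show τ ∈ {t : ℝ | c0 ≤ |t|} from h2) _
    have hB0 : 0 ≤ B (1 + c * τ) := indicator_nonneg (fun _ _ => by positivity) _
    have hA0 : 0 ≤ A τ := indicator_nonneg (fun _ _ => by positivity) _
    simp only [hG]
    rcases le_or_gt 2 (|c| * |τ|) with h4 | h4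
    · have hcp : 0 < |c| := abs_pos.2 hc
      have h5 : |c| * |τ| / 2 ≤ |1 + c * τ| := by
        have := abs_sub_abs_le_abs_sub (c * τ) (-1 : ℝ)
        rw [abs_neg, abs_mul, abs_one, sub_neg_eq_add, add_comm (c * τ) 1] at this
        linarith
      have h6 : |1 + c * τ| ^ (-(1 / 2) : ℝ) ≤ (|c| * |τ| / 2) ^ (-(1 / 2) : ℝ) :=
        Real.rpow_le_rpow_of_nonpos (by positivity) h5 (by norm_num)
      have h7 : (|c| * |τ| / 2) ^ (-(1 / 2) : ℝ) * |τ|⁻¹ =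
          (2 / |c|) ^ (1 / 2 : ℝ) * |τ| ^ (-(3 / 2) : ℝ) := by
        rw [show |c| * |τ| / 2 = (2 / |c|)⁻¹ * |τ| by field_simp,
          Real.mul_rpow (by positivity) (by positivity), Real.inv_rpow (by positivity),
          ← Real.rpow_neg (by positivity), neg_neg, mul_assoc, ← Real.rpow_neg_one |τ|,
          ← Real.rpow_add hτp]
        norm_num
      calc |1 + c * τ| ^ (-(1 / 2) : ℝ) * |τ|⁻¹
          ≤ (|c| * |τ| / 2) ^ (-(1 / 2) : ℝ) * |τ|⁻¹ := by gcongr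
        _ = (2 / |c|) ^ (1 / 2 : ℝ) * A τ := by rw [h7, hA']
        _ ≤ _ := le_add_of_nonneg_right (by positivity)
    · have h5 : 1 + c * τ ∈ Icc (-3 : ℝ) 3 := by
        rw [← abs_mul] at h4
        have := abs_lt.1 h4
        constructor <;> linarith [this.1, this.2]
      have hB' : B (1 + c * τ) = |1 + c * τ| ^ (-(1 / 2) : ℝ) := indicator_of_mem h5 _
      calc |1 + c * τ| ^ (-(1 / 2) : ℝ) * |τ|⁻¹
          ≤ |1 + c * τ| ^ (-(1 / 2) : ℝ) * c0⁻¹ := by gcongr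
        _ = c0⁻¹ * B (1 + c * τ) := by rw [hB', mul_comm]
        _ ≤ _ := le_add_of_nonneg_left (by positivity)
  · rw [indicator_of_notMem (show τ ∉ {τ : ℝ | κ * |1 + a * τ| ≤ |τ|} from hτ)]
    exact zero_le

/-- the integrand at the point `v` -/
noncomputable def Jf (κ a c v : ℝ) (t : ℝ) : ℝ≥0∞ :=
  {t : ℝ | κ * |v + a * t| ≤ |t|}.indicator
    (fun t => ‖v‖ₑ ^ (1 / 2 : ℝ) * (‖v + c * t‖ₑ ^ (1 / 2 : ℝ))⁻¹ * ‖t‖ₑ⁻¹) t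

theorem Jf_meas (κ a c : ℝ) : Measurable fun q : ℝ × ℝ => Jf κ a c q.1 q.2 := by
  have h : (fun q : ℝ × ℝ => Jf κ a c q.1 q.2) =
      {q : ℝ × ℝ | κ * |q.1 + a * q.2| ≤ |q.2|}.indicator
        (fun q => ‖q.1‖ₑ ^ (1 / 2 : ℝ) * (‖q.1 + c * q.2‖ₑ ^ (1 / 2 : ℝ))⁻¹ * ‖q.2‖ₑ⁻¹) := by
    funext q
    unfold Jf
    by_cases hq : κ * |q.1 + a * q.2| ≤ |q.2|
    · rw [indicator_of_mem (show q.2 ∈ {t : ℝ | κ * |q.1 + a * t| ≤ |t|} from hq),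
        indicator_of_mem (show q ∈ {q : ℝ × ℝ | κ * |q.1 + a * q.2| ≤ |q.2|} from hq)]
    · rw [indicator_of_notMem (show q.2 ∉ {t : ℝ | κ * |q.1 + a * t| ≤ |t|} from hq),
        indicator_of_notMem (show q ∉ {q : ℝ × ℝ | κ * |q.1 + a * q.2| ≤ |q.2|} from hq)]
  rw [h]
  refine Measurable.indicator ?_ (measurableSet_le (by fun_prop) (by fun_prop))
  fun_prop

theorem Jf_int {κ a c v : ℝ} (hv : v ≠ 0) : ∫⁻ t, Jf κ a c v t = Kc κ a c := by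
  have hm : Measurable (Jf κ a c v) := (Jf_meas κ a c).comp (measurable_const.prodMk measurable_id)
  have h1 : ∫⁻ τ, Jf κ a c v (v * τ) = ENNReal.ofReal |v⁻¹| * ∫⁻ t, Jf κ a c v t := by
    rw [← lintegral_map hm (measurable_const_mul v), Real.map_volume_mul_left hv,
      lintegral_smul_measure, smul_eq_mul]
  have hv0 : ‖v‖ₑ ≠ 0 := by simpa using hv
  have hvt : ‖v‖ₑ ≠ ∞ := enorm_ne_top
  have e1 : ENNReal.ofReal |v⁻¹| = ‖v‖ₑ⁻¹ := by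
    rw [abs_inv, ENNReal.ofReal_inv_of_pos (abs_pos.2 hv), ← Real.enorm_eq_ofReal_abs]
  have h2 : ∫⁻ t, Jf κ a c v t = ‖v‖ₑ * ∫⁻ τ, Jf κ a c v (v * τ) := by
    rw [h1, e1, ← mul_assoc, ENNReal.mul_inv_cancel hv0 hvt, one_mul]
  rw [h2, ← lintegral_const_mul' _ _ hvt]
  unfold Kc
  refine lintegral_congr fun τ => ?_
  unfold Jf
  have hiff : κ * |v + a * (v * τ)| ≤ |v * τ| ↔ κ * |1 + a * τ| ≤ |τ| := by
    rw [show v + a * (v * τ) = v * (1 + a * τ) by ring, abs_mul, abs_mul]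
    have : 0 < |v| := abs_pos.2 hv
    constructor
    · intro h
      nlinarith
    · intro h
      nlinarith
  by_cases hq : κ * |1 + a * τ| ≤ |τ|
  · rw [indicator_of_mem (show v * τ ∈ {t : ℝ | κ * |v + a * t| ≤ |t|} from hiff.2 hq),
      indicator_of_mem (show τ ∈ {τ : ℝ | κ * |1 + a * τ| ≤ |τ|} from hq)]
    have hr0 : ‖v‖ₑ ^ (1 / 2 : ℝ) ≠ 0 := by
      intro h
      exact hv0 ((ENNReal.rpow_eq_zero_iff_of_pos (by norm_num)).1 h)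
    have hrt : ‖v‖ₑ ^ (1 / 2 : ℝ) ≠ ∞ := ENNReal.rpow_ne_top_of_nonneg (by norm_num) hvt
    rw [show v + c * (v * τ) = v * (1 + c * τ) by ring, enorm_mul, enorm_mul,
      ENNReal.mul_rpow_of_nonneg _ _ (by norm_num), ENNReal.mul_inv (Or.inl hr0) (Or.inl hrt),
      ENNReal.mul_inv (Or.inl hv0) (Or.inl hvt)]
    calc ‖v‖ₑ * (‖v‖ₑ ^ (1 / 2 : ℝ) * ((‖v‖ₑ ^ (1 / 2 : ℝ))⁻¹ * (‖1 + c * τ‖ₑ ^ (1 / 2 : ℝ))⁻¹) *
          (‖v‖ₑ⁻¹ * ‖τ‖ₑ⁻¹))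
        = (‖v‖ₑ * ‖v‖ₑ⁻¹) * (‖v‖ₑ ^ (1 / 2 : ℝ) * (‖v‖ₑ ^ (1 / 2 : ℝ))⁻¹) *
          ((‖1 + c * τ‖ₑ ^ (1 / 2 : ℝ))⁻¹ * ‖τ‖ₑ⁻¹) := by ring
      _ = _ := by
        rw [ENNReal.mul_inv_cancel hv0 hvt, ENNReal.mul_inv_cancel hr0 hrt, one_mul, one_mul]
  · rw [indicator_of_notMem (show v * τ ∉ {t : ℝ | κ * |v + a * t| ≤ |t|} from
        fun h => hq (hiff.1 h)),
      indicator_of_notMem (show τ ∉ {τ : ℝ | κ * |1 + a * τ| ≤ |τ|} from hq), mul_zero]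

/-- the weighted bound for one function -/
theorem one_le {κ b b₁ b₂ s : ℝ} {g : ℝ → ℂ} (hg : Measurable g) :
    ∫⁻ p : ℝ × ℝ, ‖g (p.1 - b₁ * p.2)‖ₑ ^ (3 : ℝ) *
        Jf κ (b₁ - b) (b₁ - b₂) (p.1 - b₁ * p.2 - s) p.2 ≤
      Kc κ (b₁ - b) (b₁ - b₂) * ∫⁻ u, ‖g u‖ₑ ^ (3 : ℝ) := by
  have hJ := Jf_meas κ (b₁ - b) (b₁ - b₂)
  have hm : Measurable fun p : ℝ × ℝ => ‖g (p.1 - b₁ * p.2)‖ₑ ^ (3 : ℝ) *
      Jf κ (b₁ - b) (b₁ - b₂) (p.1 - b₁ * p.2 - s) p.2 := by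
    refine Measurable.mul ?_ (hJ.comp (Measurable.prodMk (by fun_prop) (by fun_prop)))
    fun_prop
  have hm2 : Measurable fun q : ℝ × ℝ => ‖g q.1‖ₑ ^ (3 : ℝ) *
      Jf κ (b₁ - b) (b₁ - b₂) (q.1 - s) q.2 := by
    refine Measurable.mul ?_ (hJ.comp (Measurable.prodMk (by fun_prop) (by fun_prop)))
    fun_prop
  rw [Measure.volume_eq_prod, lintegral_prod_symm' _ hm]
  have h1 : ∀ t : ℝ, ∫⁻ x : ℝ, ‖g (x - b₁ * t)‖ₑ ^ (3 : ℝ) *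
      Jf κ (b₁ - b) (b₁ - b₂) (x - b₁ * t - s) t =
      ∫⁻ u : ℝ, ‖g u‖ₑ ^ (3 : ℝ) * Jf κ (b₁ - b) (b₁ - b₂) (u - s) t := fun t =>
    lintegral_sub_right_eq_self (fun u => ‖g u‖ₑ ^ (3 : ℝ) *
      Jf κ (b₁ - b) (b₁ - b₂) (u - s) t) (b₁ * t)
  simp only [h1]
  rw [lintegral_lintegral_swap (f := fun t u => ‖g u‖ₑ ^ (3 : ℝ) *
      Jf κ (b₁ - b) (b₁ - b₂) (u - s) t)
    (hm2.comp measurable_swap).aemeasurable]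
  rw [← lintegral_const_mul'']
  swap
  · fun_prop
  refine le_of_eq (lintegral_congr_ae ?_)
  have e : ∀ᵐ u : ℝ, u ≠ s := by rw [ae_iff]; simp
  filter_upwards [e] with u hu
  rw [lintegral_const_mul' _ _ (by finiteness), Jf_int (sub_ne_zero.2 hu), mul_comm]

/-- pointwise inequality behind the weighted Hoelder inequality -/
theorem pt_le {N₁ N₂ N₃ r₁ r₂ r₃ d : ℝ≥0∞} (h₁ : r₁ ≠ 0) (h₂ : r₂ ≠ 0) (h₃ : r₃ ≠ 0)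
    (k₁ : r₁ ≠ ∞) (k₂ : r₂ ≠ ∞) (k₃ : r₃ ≠ ∞) :
    N₁ * N₂ * N₃ * d ≤
      (N₁ ^ (3 : ℝ) * (r₁ ^ (1 / 2 : ℝ) * (r₂ ^ (1 / 2 : ℝ))⁻¹ * d +
        r₁ ^ (1 / 2 : ℝ) * (r₃ ^ (1 / 2 : ℝ))⁻¹ * d)) ^ (1 / 3 : ℝ) *
      (N₂ ^ (3 : ℝ) * (r₂ ^ (1 / 2 : ℝ) * (r₁ ^ (1 / 2 : ℝ))⁻¹ * d +
        r₂ ^ (1 / 2 : ℝ) * (r₃ ^ (1 / 2 : ℝ))⁻¹ * d)) ^ (1 / 3 : ℝ) *
      (N₃ ^ (3 : ℝ) * (r₃ ^ (1 / 2 : ℝ) * (r₁ ^ (1 / 2 : ℝ))⁻¹ * d +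
        r₃ ^ (1 / 2 : ℝ) * (r₂ ^ (1 / 2 : ℝ))⁻¹ * d)) ^ (1 / 3 : ℝ) := by
  have key : ∀ r : ℝ≥0∞, r ≠ 0 → r ≠ ∞ → ∃ q : ℝ≥0∞, q ≠ 0 ∧ q ≠ ∞ ∧ r ^ (1 / 2 : ℝ) = q ^ 2 := by
    intro r hr hr'
    refine ⟨r ^ (1 / 4 : ℝ), ?_, ENNReal.rpow_ne_top_of_nonneg (by norm_num) hr', ?_⟩
    · intro h
      exact hr ((ENNReal.rpow_eq_zero_iff_of_pos (by norm_num)).1 h)
    · rw [← ENNReal.rpow_natCast, ← ENNReal.rpow_mul]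
      norm_num
  obtain ⟨q₁, a₁, c₁, e₁⟩ := key r₁ h₁ k₁
  obtain ⟨q₂, a₂, c₂, e₂⟩ := key r₂ h₂ k₂
  obtain ⟨q₃, a₃, c₃, e₃⟩ := key r₃ h₃ k₃
  rw [e₁, e₂, e₃]
  have am : ∀ x y : ℝ≥0∞, x⁻¹ * y⁻¹ ≤ (x ^ 2)⁻¹ + (y ^ 2)⁻¹ := by
    intro x y
    rw [ENNReal.inv_pow, ENNReal.inv_pow]
    rcases le_total x⁻¹ y⁻¹ with h | h
    · calc x⁻¹ * y⁻¹ ≤ y⁻¹ * y⁻¹ := by gcongr
        _ = y⁻¹ ^ 2 := by ring
        _ ≤ _ := le_add_self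
    · calc x⁻¹ * y⁻¹ ≤ x⁻¹ * x⁻¹ := by gcongr
        _ = x⁻¹ ^ 2 := by ring
        _ ≤ _ := le_self_add
  have gen : ∀ q x y : ℝ≥0∞, q ^ 2 * (x⁻¹ * y⁻¹) * d ≤
      q ^ 2 * (x ^ 2)⁻¹ * d + q ^ 2 * (y ^ 2)⁻¹ * d := by
    intro q x y
    calc q ^ 2 * (x⁻¹ * y⁻¹) * d
        ≤ q ^ 2 * ((x ^ 2)⁻¹ + (y ^ 2)⁻¹) * d := by
          gcongr
          exact am x y
      _ = _ := by ring
  have hN : ∀ N : ℝ≥0∞, N ^ (3 : ℝ) = N ^ 3 := fun N => by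
    rw [← ENNReal.rpow_natCast]; norm_num
  have i₁ : q₁ * q₁⁻¹ = 1 := ENNReal.mul_inv_cancel a₁ c₁
  have i₂ : q₂ * q₂⁻¹ = 1 := ENNReal.mul_inv_cancel a₂ c₂
  have i₃ : q₃ * q₃⁻¹ = 1 := ENNReal.mul_inv_cancel a₃ c₃
  have tot : (N₁ * N₂ * N₃ * d) ^ 3 =
      N₁ ^ (3 : ℝ) * (q₁ ^ 2 * (q₂⁻¹ * q₃⁻¹) * d) * (N₂ ^ (3 : ℝ) * (q₂ ^ 2 * (q₁⁻¹ * q₃⁻¹) * d)) *
        (N₃ ^ (3 : ℝ) * (q₃ ^ 2 * (q₁⁻¹ * q₂⁻¹) * d)) := by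
    rw [hN, hN, hN]
    calc (N₁ * N₂ * N₃ * d) ^ 3 = (N₁ * N₂ * N₃ * d) ^ 3 * 1 := (mul_one _).symm
      _ = (N₁ * N₂ * N₃ * d) ^ 3 * ((q₁ * q₁⁻¹) ^ 2 * (q₂ * q₂⁻¹) ^ 2 * (q₃ * q₃⁻¹) ^ 2) := by
        rw [i₁, i₂, i₃]; norm_num
      _ = _ := by ring
  calc N₁ * N₂ * N₃ * d = ((N₁ * N₂ * N₃ * d) ^ 3) ^ (1 / 3 : ℝ) := by
        rw [← ENNReal.rpow_natCast, ← ENNReal.rpow_mul]
        norm_num
    _ = (N₁ ^ (3 : ℝ) * (q₁ ^ 2 * (q₂⁻¹ * q₃⁻¹) * d)) ^ (1 / 3 : ℝ) *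
        (N₂ ^ (3 : ℝ) * (q₂ ^ 2 * (q₁⁻¹ * q₃⁻¹) * d)) ^ (1 / 3 : ℝ) *
        (N₃ ^ (3 : ℝ) * (q₃ ^ 2 * (q₁⁻¹ * q₂⁻¹) * d)) ^ (1 / 3 : ℝ) := by
        rw [tot, ENNReal.mul_rpow_of_nonneg _ _ (by norm_num),
          ENNReal.mul_rpow_of_nonneg _ _ (by norm_num)]
    _ ≤ _ := by
        gcongr
        · exact gen q₁ q₂ q₃
        · exact gen q₂ q₁ q₃
        · exact gen q₃ q₁ q₂

/-- the region `κ |x - b t - s| ≤ |t|` -/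
def reg (κ b s : ℝ) : Set (ℝ × ℝ) := {p : ℝ × ℝ | κ * |p.1 - b * p.2 - s| ≤ |p.2|}

theorem reg_meas (κ b s : ℝ) : MeasurableSet (reg κ b s) :=
  measurableSet_le (by fun_prop) (by fun_prop)

/-- **the Hardy type form** -/
theorem hardy {b₁ b₂ b₃ : ℝ} (h12 : b₁ ≠ b₂) (h13 : b₁ ≠ b₃) (h23 : b₂ ≠ b₃) (b : ℝ) {κ : ℝ}
    (hκ : 0 < κ) :
    ∃ C : ℝ≥0∞, C < ∞ ∧ ∀ (s : ℝ) (g₁ g₂ g₃ : ℝ → ℂ), Measurable g₁ → Measurable g₂ →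
      Measurable g₃ →
      ∫⁻ p : ℝ × ℝ, (reg κ b s).indicator (fun p => ‖g₁ (p.1 - b₁ * p.2)‖ₑ *
          ‖g₂ (p.1 - b₂ * p.2)‖ₑ * ‖g₃ (p.1 - b₃ * p.2)‖ₑ * ‖p.2‖ₑ⁻¹) p ≤
        C * (eLpNorm g₁ 3 volume * eLpNorm g₂ 3 volume * eLpNorm g₃ 3 volume) := by
  have K1 : Kc κ (b₁ - b) (b₁ - b₂) + Kc κ (b₁ - b) (b₁ - b₃) < ∞ :=
    ENNReal.add_lt_top.2 ⟨Kc_lt hκ (sub_ne_zero.2 h12), Kc_lt hκ (sub_ne_zero.2 h13)⟩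
  have K2 : Kc κ (b₂ - b) (b₂ - b₁) + Kc κ (b₂ - b) (b₂ - b₃) < ∞ :=
    ENNReal.add_lt_top.2 ⟨Kc_lt hκ (sub_ne_zero.2 h12.symm), Kc_lt hκ (sub_ne_zero.2 h23)⟩
  have K3 : Kc κ (b₃ - b) (b₃ - b₁) + Kc κ (b₃ - b) (b₃ - b₂) < ∞ :=
    ENNReal.add_lt_top.2 ⟨Kc_lt hκ (sub_ne_zero.2 h13.symm), Kc_lt hκ (sub_ne_zero.2 h23.symm)⟩
  refine ⟨(Kc κ (b₁ - b) (b₁ - b₂) + Kc κ (b₁ - b) (b₁ - b₃)) ^ (1 / 3 : ℝ) *
    (Kc κ (b₂ - b) (b₂ - b₁) + Kc κ (b₂ - b) (b₂ - b₃)) ^ (1 / 3 : ℝ) *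
    (Kc κ (b₃ - b) (b₃ - b₁) + Kc κ (b₃ - b) (b₃ - b₂)) ^ (1 / 3 : ℝ), ?_,
    fun s g₁ g₂ g₃ m₁ m₂ m₃ => ?_⟩
  · exact ENNReal.mul_lt_top (ENNReal.mul_lt_top
      (ENNReal.rpow_lt_top_of_nonneg (by norm_num) K1.ne)
      (ENNReal.rpow_lt_top_of_nonneg (by norm_num) K2.ne))
      (ENNReal.rpow_lt_top_of_nonneg (by norm_num) K3.ne)
  -- the three weighted functions
  set G : (ℝ → ℂ) → ℝ → ℝ → ℝ → ℝ × ℝ → ℝ≥0∞ := fun g c₁ c₂ c₃ p =>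
    ‖g (p.1 - c₁ * p.2)‖ₑ ^ (3 : ℝ) * Jf κ (c₁ - b) (c₁ - c₂) (p.1 - c₁ * p.2 - s) p.2 +
    ‖g (p.1 - c₁ * p.2)‖ₑ ^ (3 : ℝ) * Jf κ (c₁ - b) (c₁ - c₃) (p.1 - c₁ * p.2 - s) p.2 with hG
  have gm1 : ∀ (g : ℝ → ℂ) (c₁ c₂ : ℝ), Measurable g → Measurable fun p : ℝ × ℝ =>
      ‖g (p.1 - c₁ * p.2)‖ₑ ^ (3 : ℝ) * Jf κ (c₁ - b) (c₁ - c₂) (p.1 - c₁ * p.2 - s) p.2 := by
    intro g c₁ c₂ hg
    have hJ := Jf_meas κ (c₁ - b) (c₁ - c₂)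
    refine Measurable.mul ?_ (hJ.comp (Measurable.prodMk (by fun_prop) (by fun_prop)))
    fun_prop
  have gm : ∀ (g : ℝ → ℂ) (c₁ c₂ c₃ : ℝ), Measurable g → Measurable (G g c₁ c₂ c₃) := by
    intro g c₁ c₂ c₃ hg
    exact (gm1 g c₁ c₂ hg).add (gm1 g c₁ c₃ hg)
  have nrm : ∀ g : ℝ → ℂ, (∫⁻ u, ‖g u‖ₑ ^ (3 : ℝ)) ^ (1 / 3 : ℝ) = eLpNorm g 3 volume := by
    intro g
    rw [eLpNorm_eq_lintegral_rpow_enorm_toReal (by norm_num) (by norm_num)]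
    norm_num
  have gi : ∀ (g : ℝ → ℂ) (c₁ c₂ c₃ : ℝ), Measurable g →
      (∫⁻ p, G g c₁ c₂ c₃ p) ^ (1 / 3 : ℝ) ≤
        (Kc κ (c₁ - b) (c₁ - c₂) + Kc κ (c₁ - b) (c₁ - c₃)) ^ (1 / 3 : ℝ) *
          eLpNorm g 3 volume := by
    intro g c₁ c₂ c₃ hg
    rw [← nrm, ← ENNReal.mul_rpow_of_nonneg _ _ (by norm_num)]
    gcongr
    simp only [hG]
    rw [lintegral_add_left (gm1 g c₁ c₂ hg), add_mul]
    exact add_le_add (one_le hg) (one_le hg)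
  -- pointwise
  have hpt : ∀ᵐ p : ℝ × ℝ, (reg κ b s).indicator (fun p => ‖g₁ (p.1 - b₁ * p.2)‖ₑ *
      ‖g₂ (p.1 - b₂ * p.2)‖ₑ * ‖g₃ (p.1 - b₃ * p.2)‖ₑ * ‖p.2‖ₑ⁻¹) p ≤
      G g₁ b₁ b₂ b₃ p ^ (1 / 3 : ℝ) * G g₂ b₂ b₁ b₃ p ^ (1 / 3 : ℝ) *
        G g₃ b₃ b₁ b₂ p ^ (1 / 3 : ℝ) := by
    have hne : ∀ c : ℝ, ∀ᵐ p : ℝ × ℝ, p.1 - c * p.2 - s ≠ 0 := by
      intro c
      rw [Measure.volume_eq_prod]
      have hms : MeasurableSet {p : ℝ × ℝ | p.1 - c * p.2 - s ≠ 0} :=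
        (measurableSet_eq_fun (by fun_prop) measurable_const).compl
      rw [Measure.ae_prod_iff_ae_ae hms]
      by_cases hc : c = 0
      · have e : ∀ᵐ x : ℝ, x ≠ s := by rw [ae_iff]; simp
        filter_upwards [e] with x hx
        refine ae_of_all _ fun y => ?_
        simp only [hc, zero_mul, sub_zero]
        exact sub_ne_zero.2 hx
      · refine ae_of_all _ fun x => ?_
        have e : ∀ᵐ y : ℝ, y ≠ (x - s) / c := by rw [ae_iff]; simp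
        filter_upwards [e] with y hy h
        apply hy
        field_simp
        linarith
    filter_upwards [hne b₁, hne b₂, hne b₃] with p p₁ p₂ p₃
    by_cases hp : p ∈ reg κ b s
    · rw [indicator_of_mem hp]
      have hJ : ∀ c₁ c₂ : ℝ, Jf κ (c₁ - b) (c₁ - c₂) (p.1 - c₁ * p.2 - s) p.2 =
          ‖p.1 - c₁ * p.2 - s‖ₑ ^ (1 / 2 : ℝ) * (‖p.1 - c₂ * p.2 - s‖ₑ ^ (1 / 2 : ℝ))⁻¹ *
            ‖p.2‖ₑ⁻¹ := by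
        intro c₁ c₂
        unfold Jf
        rw [indicator_of_mem]
        · rw [show p.1 - c₁ * p.2 - s + (c₁ - c₂) * p.2 = p.1 - c₂ * p.2 - s by ring]
        · show κ * |p.1 - c₁ * p.2 - s + (c₁ - b) * p.2| ≤ |p.2|
          rw [show p.1 - c₁ * p.2 - s + (c₁ - b) * p.2 = p.1 - b * p.2 - s by ring]
          exact hp
      simp only [hG, hJ, ← mul_add]
      exact pt_le (by simpa using p₁) (by simpa using p₂) (by simpa using p₃) enorm_ne_top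
        enorm_ne_top enorm_ne_top
    · rw [indicator_of_notMem hp]
      exact zero_le
  refine (lintegral_mono_ae hpt).trans ?_
  have hol := ENNReal.lintegral_prod_norm_pow_le (μ := (volume : Measure (ℝ × ℝ)))
    (Finset.univ : Finset (Fin 3))
    (f := ![G g₁ b₁ b₂ b₃, G g₂ b₂ b₁ b₃, G g₃ b₃ b₁ b₂]) (p := fun _ => (1 / 3 : ℝ))
    (by
      intro i _
      fin_cases i
      · exact (gm g₁ b₁ b₂ b₃ m₁).aemeasurable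
      · exact (gm g₂ b₂ b₁ b₃ m₂).aemeasurable
      · exact (gm g₃ b₃ b₁ b₂ m₃).aemeasurable)
    (by simp) (by intro i _; norm_num)
  simp only [Fin.prod_univ_three, Matrix.cons_val_zero, Matrix.cons_val_one,
    Matrix.cons_val_two] at hol
  refine hol.trans ?_
  calc _ ≤ ((Kc κ (b₁ - b) (b₁ - b₂) + Kc κ (b₁ - b) (b₁ - b₃)) ^ (1 / 3 : ℝ) *
          eLpNorm g₁ 3 volume) *
        ((Kc κ (b₂ - b) (b₂ - b₁) + Kc κ (b₂ - b) (b₂ - b₃)) ^ (1 / 3 : ℝ) *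
          eLpNorm g₂ 3 volume) *
        ((Kc κ (b₃ - b) (b₃ - b₁) + Kc κ (b₃ - b) (b₃ - b₂)) ^ (1 / 3 : ℝ) *
          eLpNorm g₃ 3 volume) :=
        mul_le_mul' (mul_le_mul' (gi _ _ _ _ m₁) (gi _ _ _ _ m₂)) (gi _ _ _ _ m₃)
    _ = _ := by ring

end Vale.Agent.P141.R2.H131
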