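import Vale.Agent.P141.R2.H131.Bv
import Vale.Agent.P141.R2.H106.Comb

/-!
# P141: amplitudes of bounded variation in front of locally structured functions
-/

namespace Vale.Agent.P141.R2.H131

open MeasureTheory Set Filter Topology
open scoped ENNReal
open Vale.Agent.P141.H97 (bk bk_meas bk_int Nice)
open Vale.Agent.P141.R2.H106 (LS Rep dE wk n3 one_form)

/-- monotone on every interval disjoint from `E` -/
def PM (E : Finset ℝ) (v : ℝ → ℝ) : Prop :=
  ∀ x y : ℝ, x ≤ y → (∀ e ∈ E, ¬(x ≤ e ∧ e ≤ y)) → v x ≤ v y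

/-- the upper level sets have few boundary points -/
theorem fr_card {E : Finset ℝ} {v : ℝ → ℝ} (hv : PM E v) (l : ℝ) :
    ∃ E' : Finset ℝ, E ⊆ E' ∧ E'.card ≤ 2 * E.card + 1 ∧ frontier {x | l < v x} ⊆ E' := by
  classical
  set S : Set ℝ := {x | l < v x} with hS
  have key : ∀ x ∈ frontier S, ∀ y ∈ frontier S, x < y → (∀ e ∈ E, ¬(x ≤ e ∧ e ≤ y)) →
      False := by
    intro x hx y hy hxy hE
    rw [frontier_eq_closure_inter_closure] at hx hy
    have f1 : ∃ᶠ s in 𝓝 x, s ∈ S := mem_closure_iff_frequently.1 hx.1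
    have f2 : ∃ᶠ t in 𝓝 y, t ∈ Sᶜ := mem_closure_iff_frequently.1 hy.2
    have e1 : ∀ᶠ s in 𝓝 x, s < (x + y) / 2 ∧ ∀ e ∈ E, e < x → e < s := by
      refine (gt_mem_nhds (show x < (x + y) / 2 by linarith)).and ?_
      refine (Finset.eventually_all E).2 fun e _ => ?_
      by_cases h : e < x
      · exact (lt_mem_nhds h).mono fun s hs _ => hs
      · exact Eventually.of_forall fun s hs => absurd hs h
    have e2 : ∀ᶠ t in 𝓝 y, (x + y) / 2 < t ∧ ∀ e ∈ E, y < e → t < e := by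
      refine (lt_mem_nhds (show (x + y) / 2 < y by linarith)).and ?_
      refine (Finset.eventually_all E).2 fun e _ => ?_
      by_cases h : y < e
      · exact (gt_mem_nhds h).mono fun s hs _ => hs
      · exact Eventually.of_forall fun s hs => absurd hs h
    obtain ⟨s, hs, hs1, hs2⟩ := (f1.and_eventually e1).exists
    obtain ⟨t, ht, ht1, ht2⟩ := (f2.and_eventually e2).exists
    have h1 : v s ≤ v t := by
      refine hv s t (by linarith) fun e he hc => ?_
      rcases lt_or_ge e x with h | h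
      · exact absurd (hs2 e he h) (not_lt.2 hc.1)
      · rcases lt_or_ge y e with h' | h'
        · exact absurd (ht2 e he h') (not_lt.2 hc.2)
        · exact hE e he ⟨h, h'⟩
    have h2 : l < v s := hs
    have h3 : ¬ l < v t := ht
    exact h3 (h2.trans_le h1)
  set f : ℝ → ℕ := fun x => (E.filter (· < x)).card with hf
  set F : Set ℝ := frontier S \ E with hF
  have inj' : ∀ x ∈ F, ∀ y ∈ F, x < y → f x ≠ f y := by
    intro x hx y hy hxy he
    refine key x hx.1 y hy.1 hxy fun e heE hc => ?_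
    have hsub : E.filter (· < x) ⊆ E.filter (· < y) := by
      intro z hz
      rw [Finset.mem_filter] at hz ⊢
      exact ⟨hz.1, hz.2.trans hxy⟩
    have heq := Finset.eq_of_subset_of_card_le hsub he.ge
    have h1 : e < y := lt_of_le_of_ne hc.2 fun h => hy.2 (by rw [← h]; exact heE)
    have h2 : e ∈ E.filter (· < x) := by
      rw [heq, Finset.mem_filter]
      exact ⟨heE, h1⟩
    rw [Finset.mem_filter] at h2
    exact absurd h2.2 (not_lt.2 hc.1)
  have inj : InjOn f F := by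
    intro x hx y hy he
    rcases lt_trichotomy x y with h | h | h
    · exact absurd he (inj' x hx y hy h)
    · exact h
    · exact absurd he.symm (inj' y hy x hx h)
  have maps : ∀ x ∈ F, f x ∈ Finset.range (E.card + 1) := by
    intro x _
    rw [Finset.mem_range]
    exact Nat.lt_succ_of_le (Finset.card_filter_le _ _)
  have fin : F.Finite := Set.Finite.of_injOn (f := f) (t := (Finset.range (E.card + 1) : Set ℕ))
    (fun x hx => by exact_mod_cast maps x hx) inj (Finset.finite_toSet _)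
  refine ⟨E ∪ fin.toFinset, Finset.subset_union_left, ?_, ?_⟩
  · have h1 := Finset.card_union_le E fin.toFinset
    have h2 : fin.toFinset.card ≤ (Finset.range (E.card + 1)).card := by
      refine Finset.card_le_card_of_injOn f (fun x hx => ?_) fun x hx y hy he => ?_
      · exact maps x (by simpa using hx)
      · exact inj (by simpa using hx) (by simpa using hy) he
    rw [Finset.card_range] at h2
    omega
  · intro x hx
    by_cases h : x ∈ E
    · simp [h]
    · simp only [Finset.coe_union, Finite.coe_toFinset, mem_union]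
      exact Or.inr ⟨hx, h⟩

/-- a set with a finite boundary is measurable -/
theorem meas_of_fr {S : Set ℝ} {E' : Finset ℝ} (h : frontier S ⊆ E') : MeasurableSet S := by
  have e : S = interior S ∪ (S ∩ frontier S) := by
    apply Subset.antisymm
    · intro x hx
      have h1 := subset_closure hx
      rw [closure_eq_interior_union_frontier] at h1
      rcases h1 with h1 | h1
      · exact Or.inl h1
      · exact Or.inr ⟨hx, h1⟩
    · exact union_subset interior_subset inter_subset_left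
  rw [e]
  refine isOpen_interior.measurableSet.union ?_
  exact ((Finset.finite_toSet E').subset (inter_subset_right.trans h)).measurableSet

/-- such a set is constant in the balls which do not meet the boundary -/
theorem mem_iff_of_fr {S : Set ℝ} {E' : Finset ℝ} (h : frontier S ⊆ E') {x y : ℝ}
    (hxy : |x - y| < dE E' y) : x ∈ S ↔ y ∈ S := by
  have dis : ∀ z ∈ uIcc x y, z ∉ frontier S := by
    intro z hz hc
    have h1 : Metric.infDist y (E' : Set ℝ) ≤ dist y z := Metric.infDist_le_dist_of_mem (h hc)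
    have h2 : |z - y| ≤ |x - y| := by
      rw [abs_sub_comm z y, abs_sub_comm x y]
      exact abs_sub_right_of_mem_uIcc hz
    rw [Real.dist_eq, abs_sub_comm] at h1
    have h3 : |x - y| < Metric.infDist y (E' : Set ℝ) := hxy
    linarith
  have sub : uIcc x y ⊆ interior S ∪ interior Sᶜ := by
    intro z hz
    rw [← compl_frontier_eq_union_interior]
    exact dis z hz
  have disj : Disjoint (interior S) (interior Sᶜ) :=
    disjoint_compl_right.mono interior_subset interior_subset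
  constructor
  · intro hx
    have h1 : x ∈ interior S := by
      rcases sub left_mem_uIcc with h1 | h1
      · exact h1
      · exact absurd hx (interior_subset h1)
    have h2 := isPreconnected_uIcc.subset_left_of_subset_union isOpen_interior isOpen_interior
      disj sub ⟨x, left_mem_uIcc, h1⟩
    exact interior_subset (h2 right_mem_uIcc)
  · intro hy
    have h1 : y ∈ interior S := by
      rcases sub right_mem_uIcc with h1 | h1
      · exact h1
      · exact absurd hy (interior_subset h1)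
    have h2 := isPreconnected_uIcc.subset_left_of_subset_union isOpen_interior isOpen_interior
      disj sub ⟨y, right_mem_uIcc, h1⟩
    exact interior_subset (h2 left_mem_uIcc)

/-- the restriction of a locally structured function to a set with a finite boundary -/
theorem LS_cut {κ c : ℝ} (hc0 : 0 ≤ c) (hc : c ≤ 1 / 4) {E E' : Finset ℝ} (hE : E.Nonempty)
    (hEE : E ⊆ E') {S : Set ℝ} (hS : frontier S ⊆ E') {g : ℝ → ℂ} (hg : LS κ c E g) :
    LS κ c E' (S.indicator g) := by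
  obtain ⟨gm, gb, gr⟩ := hg
  refine ⟨gm.indicator (meas_of_fr hS), fun x => (norm_indicator_le_norm_self _ _).trans (gb x),
    fun y hy => ?_⟩
  have hE' : E'.Nonempty := hE.mono hEE
  have hyE : y ∉ E := fun h => hy (hEE h)
  have hd : dE E' y ≤ dE E y :=
    Metric.infDist_le_infDist_of_subset (by exact_mod_cast hEE) (by exact_mod_cast hE)
  have hd0 : 0 < dE E' y := H106.dE_pos hE' hy
  have R := (gr y hyE).mono (mul_le_mul_of_nonneg_left hd hc0)
  obtain ⟨Ω, mΩ, μ, H₀, H₁, H₂, hμ, m₀, m₁, m₂, b₀, b₁, b₂, e⟩ := R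
  have small : ∀ a b c' : ℝ, |a| ≤ c * dE E' y → |b| ≤ c * dE E' y → |c'| ≤ c * dE E' y →
      |a + b + c' + y - y| < dE E' y := by
    intro a b c' ha hb hc'
    rw [add_sub_cancel_right]
    have h1 := abs_add_three a b c'
    have h2 : c * dE E' y ≤ 1 / 4 * dE E' y := mul_le_mul_of_nonneg_right hc hd0.le
    linarith
  by_cases hyS : y ∈ S
  · refine ⟨Ω, mΩ, μ, H₀, H₁, H₂, hμ, m₀, m₁, m₂, b₀, b₁, b₂, fun a b c' ha hb hc' => ?_⟩
    have h1 := (mem_iff_of_fr hS (small a b c' ha hb hc')).2 hyS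
    show S.indicator g (a + b + c' + y) = _
    rw [indicator_of_mem h1]
    exact e a b c' ha hb hc'
  · refine ⟨Ω, mΩ, μ, fun _ => 0, H₁, H₂, hμ, measurable_const, m₁, m₂, fun _ => by simp, b₁, b₂,
      fun a b c' ha hb hc' => ?_⟩
    have h1 : a + b + c' + y ∉ S := fun h =>
      hyS ((mem_iff_of_fr hS (small a b c' ha hb hc')).1 h)
    show S.indicator g (a + b + c' + y) = _
    rw [indicator_of_notMem h1]
    simp

variable {ε R b₁ b₂ b₃ b : ℝ}

/-- integration over the levels of the amplitude -/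
theorem levels_M (hε : 0 < ε) {g₁ g₂ g₃ h : ℝ → ℂ} (n₁ : Nice g₁) (n₂ : Nice g₂) (n₃ : Nice g₃)
    (hm : Measurable h) {B : ℝ}
    (hh : ∀ x, ‖h x‖ ≤ B) {w : ℝ → ℝ} (wm : Measurable w) (w0 : ∀ x, 0 ≤ w x)
    (w1 : ∀ x, w x ≤ 1) {M : ℝ}
    (H : ∀ l : ℝ, ‖Q ε R b₁ b₂ b₃ b g₁ g₂ g₃ ({x | l < w x}.indicator h)‖ ≤ M) :
    ‖Q ε R b₁ b₂ b₃ b g₁ g₂ g₃ (fun x => (w x : ℂ) * h x)‖ ≤ M := by
  have hI := Q_int (R := R) (b₁ := b₁) (b₂ := b₂) (b₃ := b₃) (b := b) hε n₁ n₂ n₃ hm hh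
  set K : ℝ × ℝ → ℂ := fun p => bk ε R b₁ b₂ b₃ g₁ g₂ g₃ p * h (p.1 - b * p.2) with hK
  set ν : Measure ℝ := volume.restrict (Ioc (0 : ℝ) 1) with hν
  have e : Q ε R b₁ b₂ b₃ b g₁ g₂ g₃ (fun x => (w x : ℂ) * h x) =
      ∫ p : ℝ × ℝ, ∫ l, K p * (if l < w (p.1 - b * p.2) then (1 : ℂ) else 0) ∂ν := by
    unfold Q
    refine integral_congr_ae (ae_of_all _ fun p => ?_)
    simp only
    rw [integral_const_mul, hν, layer (w0 _) (w1 _), hK]
    ring
  have hint : Integrable (fun z : (ℝ × ℝ) × ℝ =>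
      K z.1 * (if z.2 < w (z.1.1 - b * z.1.2) then (1 : ℂ) else 0))
      ((volume : Measure (ℝ × ℝ)).prod ν) := by
    refine (hI.comp_fst ν).mul_bdd (c := 1) ?_ (ae_of_all _ fun z => ?_)
    · refine (Measurable.ite ?_ measurable_const measurable_const).aestronglyMeasurable
      exact measurableSet_lt measurable_snd (wm.comp (by fun_prop))
    · split_ifs <;> simp
  rw [e, integral_integral_swap hint]
  have hl : ∀ l : ℝ, ‖∫ p : ℝ × ℝ, K p * (if l < w (p.1 - b * p.2) then (1 : ℂ) else 0)‖ ≤ M := by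
    intro l
    refine le_trans (le_of_eq ?_) (H l)
    unfold Q
    congr 1
    refine integral_congr_ae (ae_of_all _ fun p => ?_)
    simp only [hK]
    by_cases hp : l < w (p.1 - b * p.2)
    · rw [if_pos hp, indicator_of_mem (show p.1 - b * p.2 ∈ {x | l < w x} from hp), mul_one]
    · rw [if_neg hp, indicator_of_notMem (show p.1 - b * p.2 ∉ {x | l < w x} from hp),
        mul_zero, mul_zero]
  have := norm_setIntegral_le_of_norm_le_const (μ := (volume : Measure ℝ)) (s := Ioc (0 : ℝ) 1)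
    (f := fun l => ∫ p : ℝ × ℝ, K p * (if l < w (p.1 - b * p.2) then (1 : ℂ) else 0))
    (C := M) (by simp) fun l _ => hl l
  refine this.trans (le_of_eq ?_)
  simp

theorem PM.meas {E : Finset ℝ} {v : ℝ → ℝ} (hv : PM E v) : Measurable v := by
  refine measurable_of_Ioi fun l => ?_
  obtain ⟨E', -, -, h⟩ := fr_card hv l
  exact meas_of_fr h

theorem LS.mono_c {κ c c' : ℝ} (hc : c' ≤ c) {E : Finset ℝ} {g : ℝ → ℂ} (hg : LS κ c E g) :
    LS κ c' E g :=
  ⟨hg.1, hg.2.1, fun y hy => (hg.2.2 y hy).mono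
    (mul_le_mul_of_nonneg_right hc (H106.dE_nonneg E y))⟩

/-- the form bound for locally structured functions -/
theorem ls_QB (h12 : b₁ ≠ b₂) (h13 : b₁ ≠ b₃) (h23 : b₂ ≠ b₃) (b : ℝ) {c : ℝ} (hc : 0 < c) :
    ∃ C : ℝ, 0 ≤ C ∧ ∀ κ ε R : ℝ, 0 ≤ κ → 0 < ε → ε < R → ∀ (n : ℕ) (E : Finset ℝ),
      E.Nonempty → E.card < 2 ^ n → ∀ g : ℝ → ℂ, LS κ c E g →
        QB (C * κ * (1 + n)) ε R b₁ b₂ b₃ b g := by
  obtain ⟨C, hC, H⟩ := one_form b b₁ b₂ b₃ h12 h13 h23 hc
  exact ⟨C, hC, fun κ ε R hκ hε hR n E hE hn g hg g₁ g₂ g₃ m₁ m₂ m₃ =>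
    H κ ε R hκ hε hR n E hE hn g hg g₁ g₂ g₃ m₁ m₂ m₃⟩

/-- **a piecewise monotone amplitude** -/
theorem pm_form (h12 : b₁ ≠ b₂) (h13 : b₁ ≠ b₃) (h23 : b₂ ≠ b₃) (b : ℝ) {c : ℝ} (hc : 0 < c)
    (hc4 : c ≤ 1 / 4) :
    ∃ C : ℝ, 0 ≤ C ∧ ∀ κ ε R : ℝ, 0 ≤ κ → 0 < ε → ε < R → ∀ (n : ℕ) (E : Finset ℝ),
      E.Nonempty → E.card < 2 ^ n → ∀ (g : ℝ → ℂ) (v : ℝ → ℝ), LS κ c E g → PM E v →
        (∀ x, |v x| ≤ 1) → QB (C * κ * (1 + n)) ε R b₁ b₂ b₃ b (fun x => (v x : ℂ) * g x) := by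
  obtain ⟨C, hC, H⟩ := ls_QB h12 h13 h23 b hc
  refine ⟨5 * C, by positivity, fun κ ε R hκ hε hR n E hE hn g v hg hv hv1 => ?_⟩
  intro g₁ g₂ g₃ n₁ n₂ n₃
  have um : Measurable v := hv.meas
  obtain ⟨gm, gb, -⟩ := id hg
  set w : ℝ → ℝ := fun x => (v x + 1) / 2 with hw
  have wm : Measurable w := (um.add_const 1).div_const 2
  have w0 : ∀ x, 0 ≤ w x := fun x => by
    have := abs_le.1 (hv1 x)
    simp only [hw]; linarith [this.1]
  have w1 : ∀ x, w x ≤ 1 := fun x => by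
    have := abs_le.1 (hv1 x)
    simp only [hw]; linarith [this.2]
  have hwp : PM E w := fun x y hxy he => by
    have := hv x y hxy he
    simp only [hw]; linarith
  set P' := N3 g₁ * N3 g₂ * N3 g₃ with hP'
  have hP0 : 0 ≤ P' := mul_nonneg (mul_nonneg (N3_nonneg _) (N3_nonneg _)) (N3_nonneg _)
  have hn0 : (0 : ℝ) ≤ n := Nat.cast_nonneg n
  have lev : ∀ l : ℝ, ‖Q ε R b₁ b₂ b₃ b g₁ g₂ g₃ ({x | l < w x}.indicator g)‖ ≤
      2 * C * κ * (1 + n) * P' := by
    intro l
    obtain ⟨E', hEE, hcard, hfr⟩ := fr_card hwp l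
    have hn' : E'.card < 2 ^ (n + 1) := by rw [pow_succ]; omega
    have := H κ ε R hκ hε hR (n + 1) E' (hE.mono hEE) hn' _
      (LS_cut hc.le hc4 hE hEE hfr hg) g₁ g₂ g₃ n₁ n₂ n₃
    refine this.trans ?_
    have h1 : C * κ * (1 + ((n + 1 : ℕ) : ℝ)) ≤ 2 * C * κ * (1 + n) := by
      push_cast
      have : 0 ≤ C * κ := by positivity
      nlinarith [mul_nonneg this hn0]
    exact mul_le_mul_of_nonneg_right h1 hP0
  have main := levels_M (R := R) (b₁ := b₁) (b₂ := b₂) (b₃ := b₃) (b := b) hε n₁ n₂ n₃ gm gb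
    wm w0 w1 lev
  have base := H κ ε R hκ hε hR n E hE hn g hg g₁ g₂ g₃ n₁ n₂ n₃
  have e : Q ε R b₁ b₂ b₃ b g₁ g₂ g₃ (fun x => (v x : ℂ) * g x) =
      2 * Q ε R b₁ b₂ b₃ b g₁ g₂ g₃ (fun x => (w x : ℂ) * g x) -
        Q ε R b₁ b₂ b₃ b g₁ g₂ g₃ g := by
    have I1 := Q_int (R := R) (b₁ := b₁) (b₂ := b₂) (b₃ := b₃) (b := b) hε n₁ n₂ n₃
      (h := fun x => (w x : ℂ) * g x)
      ((Complex.measurable_ofReal.comp wm).mul gm) (B := κ) fun x => by
        rw [norm_mul, Complex.norm_real, Real.norm_of_nonneg (w0 x)]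
        calc w x * ‖g x‖ ≤ 1 * κ := mul_le_mul (w1 x) (gb x) (norm_nonneg _) zero_le_one
          _ = κ := one_mul _
    have I2 := Q_int (R := R) (b₁ := b₁) (b₂ := b₂) (b₃ := b₃) (b := b) hε n₁ n₂ n₃ gm gb
    unfold Q
    rw [← integral_const_mul, ← integral_sub (I1.const_mul 2) I2]
    refine integral_congr_ae (ae_of_all _ fun p => ?_)
    simp only [hw]
    push_cast
    ring
  rw [e]
  calc ‖2 * Q ε R b₁ b₂ b₃ b g₁ g₂ g₃ (fun x => (w x : ℂ) * g x) -
        Q ε R b₁ b₂ b₃ b g₁ g₂ g₃ g‖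
      ≤ ‖2 * Q ε R b₁ b₂ b₃ b g₁ g₂ g₃ (fun x => (w x : ℂ) * g x)‖ +
        ‖Q ε R b₁ b₂ b₃ b g₁ g₂ g₃ g‖ := norm_sub_le _ _
    _ ≤ 2 * (2 * C * κ * (1 + n) * P') + C * κ * (1 + n) * P' := by
        rw [norm_mul]
        have : ‖(2 : ℂ)‖ = 2 := by norm_num
        rw [this]
        linarith
    _ = 5 * C * κ * (1 + n) * P' := by ring

/-- the part of the component of `x` to the left of `x` -/
def lft (E : Finset ℝ) (x : ℝ) : Set ℝ := {y | y ≤ x ∧ ∀ e ∈ E, ¬(y ≤ e ∧ e ≤ x)}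

theorem lft_ord (E : Finset ℝ) (x : ℝ) : (lft E x).OrdConnected := by
  refine ⟨fun z₁ h₁ z₂ h₂ w hw => ⟨hw.2.trans h₂.1, fun e he hc => h₁.2 e he ⟨?_, hc.2⟩⟩⟩
  exact hw.1.trans hc.1

theorem lft_disj (E : Finset ℝ) (x : ℝ) : ∀ e ∈ E, e ∉ lft E x :=
  fun e he h => h.2 e he ⟨le_rfl, h.1⟩

/-- total variation at most one on every interval disjoint from `E` -/
def PV1 {X : Type*} [PseudoEMetricSpace X] (E : Finset ℝ) (v : ℝ → X) : Prop :=
  ∀ s : Set ℝ, s.OrdConnected → (∀ e ∈ E, e ∉ s) → eVariationOn v s ≤ 1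

theorem real_pm {E : Finset ℝ} {r : ℝ → ℝ} (hr1 : ∀ x, |r x| ≤ 1) (hr : PV1 E r) :
    ∃ p q : ℝ → ℝ, PM E p ∧ PM E q ∧ (∀ x, |p x| ≤ 1) ∧ (∀ x, |q x| ≤ 2) ∧
      ∀ x, r x = p x - q x := by
  set p : ℝ → ℝ := fun x => (eVariationOn r (lft E x)).toReal with hp
  have le1 : ∀ x, eVariationOn r (lft E x) ≤ 1 := fun x => hr _ (lft_ord E x) (lft_disj E x)
  have p0 : ∀ x, 0 ≤ p x := fun x => ENNReal.toReal_nonneg
  have p1 : ∀ x, p x ≤ 1 := fun x => ENNReal.toReal_le_of_le_ofReal zero_le_one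
    (by simpa using le1 x)
  have step : ∀ x y : ℝ, x ≤ y → (∀ e ∈ E, ¬(x ≤ e ∧ e ≤ y)) → p x + |r x - r y| ≤ p y := by
    intro x y hxy he
    have sub : lft E x ∪ Icc x y ⊆ lft E y := by
      rintro z (hz | hz)
      · refine ⟨hz.1.trans hxy, fun e heE hc => ?_⟩
        rcases le_total e x with h | h
        · exact hz.2 e heE ⟨hc.1, h⟩
        · exact he e heE ⟨h, hc.2⟩
      · exact ⟨hz.2, fun e heE hc => he e heE ⟨hz.1.trans hc.1, hc.2⟩⟩
    have h1 := eVariationOn.add_le_union r (s := lft E x) (t := Icc x y)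
      (fun a ha c hc => ha.1.trans hc.1)
    have h2 := h1.trans (eVariationOn.mono r sub)
    have h3 : edist (r x) (r y) ≤ eVariationOn r (Icc x y) :=
      eVariationOn.edist_le r ⟨le_rfl, hxy⟩ ⟨hxy, le_rfl⟩
    have h4 : eVariationOn r (lft E x) + edist (r x) (r y) ≤ eVariationOn r (lft E y) :=
      (add_le_add le_rfl h3).trans h2
    have h5 := ENNReal.toReal_mono (ne_top_of_le_ne_top ENNReal.one_ne_top (le1 y)) h4
    rw [ENNReal.toReal_add (ne_top_of_le_ne_top ENNReal.one_ne_top (le1 x)) (edist_ne_top _ _),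
      edist_dist, ENNReal.toReal_ofReal dist_nonneg, Real.dist_eq] at h5
    exact h5
  refine ⟨p, fun x => p x - r x, fun x y hxy he => ?_, fun x y hxy he => ?_, fun x => ?_,
    fun x => ?_, fun x => by ring⟩
  · have := step x y hxy he
    linarith [abs_nonneg (r x - r y)]
  · have := step x y hxy he
    have h1 := abs_le.1 (le_refl |r x - r y|)
    simp only
    linarith [h1.1]
  · rw [abs_of_nonneg (p0 x)]
    exact p1 x
  · have := abs_sub (p x) (r x)
    rw [abs_of_nonneg (p0 x)] at this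
    have h1 := p1 x
    have h2 := hr1 x
    linarith

theorem PV1.comp {E : Finset ℝ} {v : ℝ → ℂ} (hv : PV1 E v) {f : ℂ → ℝ} (hf : LipschitzWith 1 f) :
    PV1 E (fun x => f (v x)) := by
  intro s hs hd
  have := (hf.lipschitzOnWith (s := univ)).comp_eVariationOn_le (g := v) (s := s)
    (fun x _ => mem_univ _)
  refine (le_trans this ?_)
  simpa using hv s hs hd

/-- real amplitudes -/
theorem pv_real (h12 : b₁ ≠ b₂) (h13 : b₁ ≠ b₃) (h23 : b₂ ≠ b₃) (b : ℝ) {c : ℝ} (hc : 0 < c)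
    (hc4 : c ≤ 1 / 4) :
    ∃ C : ℝ, 0 ≤ C ∧ ∀ κ ε R : ℝ, 0 ≤ κ → 0 < ε → ε < R → ∀ (n : ℕ) (E : Finset ℝ),
      E.Nonempty → E.card < 2 ^ n → ∀ (g : ℝ → ℂ) (r : ℝ → ℝ), LS κ c E g → PV1 E r →
        (∀ x, |r x| ≤ 1) → Measurable r ∧
        QB (C * κ * (1 + n)) ε R b₁ b₂ b₃ b (fun x => (r x : ℂ) * g x) := by
  obtain ⟨C, hC, H⟩ := pm_form h12 h13 h23 b hc hc4
  refine ⟨3 * C, by positivity, fun κ ε R hκ hε hR n E hE hn g r hg hr hr1 => ?_⟩
  obtain ⟨p, q, pm, qm, p1, q1, e⟩ := real_pm hr1 hr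
  obtain ⟨gm, gb, -⟩ := id hg
  have k₁ := H κ ε R hκ hε hR n E hE hn g p hg pm p1
  have k₂ := H κ ε R hκ hε hR n E hE hn g (fun x => q x / 2) hg
    (fun x y hxy he => by have := qm x y hxy he; simp only; linarith) (fun x => by
      rw [abs_div, abs_of_pos (two_pos : (0 : ℝ) < 2)]; linarith [q1 x])
  have k₃ := QB_smul (-2 : ℂ) k₂
  have m₁ : Measurable fun x => (p x : ℂ) * g x :=
    (Complex.measurable_ofReal.comp pm.meas).mul gm
  have m₂ : Measurable fun x => (-2 : ℂ) * (((q x / 2 : ℝ) : ℂ) * g x) :=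
    measurable_const.mul ((Complex.measurable_ofReal.comp (qm.meas.div_const 2)).mul gm)
  have k₄ := QB_add hε m₁ m₂ (B₁ := κ) (B₂ := 2 * κ) (fun x => by
      rw [norm_mul, Complex.norm_real, Real.norm_eq_abs]
      calc |p x| * ‖g x‖ ≤ 1 * κ := mul_le_mul (p1 x) (gb x) (norm_nonneg _) zero_le_one
        _ = κ := one_mul _) (fun x => by
      rw [norm_mul, norm_mul, Complex.norm_real, Real.norm_eq_abs, abs_div,
        abs_of_pos (two_pos : (0 : ℝ) < 2)]
      have h1 : ‖(-2 : ℂ)‖ = 2 := by norm_num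
      rw [h1]
      have h2 : |q x| / 2 * ‖g x‖ ≤ 1 * κ :=
        mul_le_mul (by linarith [q1 x]) (gb x) (norm_nonneg _) zero_le_one
      linarith) k₁ k₃
  have e2 : (fun x => (r x : ℂ) * g x) =
      fun x => (p x : ℂ) * g x + (-2 : ℂ) * (((q x / 2 : ℝ) : ℂ) * g x) := by
    funext x
    rw [e x]
    push_cast
    ring
  refine ⟨?_, ?_⟩
  · have : r = fun x => p x - q x := funext e
    rw [this]
    exact pm.meas.sub qm.meas
  rw [e2]
  refine QB_mono ?_ k₄
  have h1 : ‖(-2 : ℂ)‖ = 2 := by norm_num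
  rw [h1]
  linarith

/-- locally structured functions with an amplitude: `h = v g`, `g` locally structured with respect
to `E`, `v` bounded by one and of variation at most one on every interval disjoint from `E` -/
def LA (κ c : ℝ) (E : Finset ℝ) (h : ℝ → ℂ) : Prop :=
  ∃ v g : ℝ → ℂ, LS κ c E g ∧ (∀ x, ‖v x‖ ≤ 1) ∧
    (∀ s : Set ℝ, s.OrdConnected → (∀ e ∈ E, e ∉ s) → eVariationOn v s ≤ 1) ∧
    ∀ x, h x = v x * g x

/-- **the form bound for locally structured functions with an amplitude** -/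
theorem la_form (h12 : b₁ ≠ b₂) (h13 : b₁ ≠ b₃) (h23 : b₂ ≠ b₃) (b : ℝ) {c : ℝ} (hc : 0 < c) :
    ∃ C : ℝ, 0 ≤ C ∧ ∀ κ ε R : ℝ, 0 ≤ κ → 0 < ε → ε < R → ∀ (n : ℕ) (E : Finset ℝ),
      E.Nonempty → E.card < 2 ^ n → ∀ h : ℝ → ℂ, LA κ c E h →
        QB (C * κ * (1 + n)) ε R b₁ b₂ b₃ b h := by
  obtain ⟨C, hC, H⟩ := pv_real h12 h13 h23 b (c := min c (1 / 4)) (by positivity)
    (min_le_right _ _)
  refine ⟨2 * C, by positivity, fun κ ε R hκ hε hR n E hE hn h hh => ?_⟩
  obtain ⟨v, g, hg', hv1, hv, e⟩ := hh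
  have hg := LS.mono_c (min_le_left c (1 / 4)) hg'
  obtain ⟨gm, gb, -⟩ := id hg
  have hre := PV1.comp (E := E) hv (f := Complex.re) (Complex.reCLM.lipschitz.weaken (by simp))
  have him := PV1.comp (E := E) hv (f := Complex.im) (Complex.imCLM.lipschitz.weaken (by simp))
  obtain ⟨rm, k₁⟩ := H κ ε R hκ hε hR n E hE hn g _ hg hre
    (fun x => (Complex.abs_re_le_norm _).trans (hv1 x))
  obtain ⟨im, k₂⟩ := H κ ε R hκ hε hR n E hE hn g _ hg him
    (fun x => (Complex.abs_im_le_norm _).trans (hv1 x))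
  have k₃ := QB_smul Complex.I k₂
  have k₄ := QB_add hε (h₁ := fun x => (((v x).re : ℝ) : ℂ) * g x)
    (h₂ := fun x => Complex.I * ((((v x).im : ℝ) : ℂ) * g x))
    ((Complex.measurable_ofReal.comp rm).mul gm)
    (measurable_const.mul ((Complex.measurable_ofReal.comp im).mul gm)) (B₁ := κ) (B₂ := κ)
    (fun x => by
      rw [norm_mul, Complex.norm_real, Real.norm_eq_abs]
      calc |(v x).re| * ‖g x‖ ≤ 1 * κ := mul_le_mul ((Complex.abs_re_le_norm _).trans (hv1 x))
            (gb x) (norm_nonneg _) zero_le_one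
        _ = κ := one_mul _)
    (fun x => by
      rw [norm_mul, norm_mul, Complex.norm_I, one_mul, Complex.norm_real, Real.norm_eq_abs]
      calc |(v x).im| * ‖g x‖ ≤ 1 * κ := mul_le_mul ((Complex.abs_im_le_norm _).trans (hv1 x))
            (gb x) (norm_nonneg _) zero_le_one
        _ = κ := one_mul _) k₁ k₃
  have e2 : h = fun x => (((v x).re : ℝ) : ℂ) * g x +
      Complex.I * ((((v x).im : ℝ) : ℂ) * g x) := by
    funext x
    rw [e x]
    conv_lhs => rw [← Complex.re_add_im (v x)]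
    ring
  rw [e2]
  refine QB_mono ?_ k₄
  rw [Complex.norm_I]
  linarith

/-- measurability and bounds -/
theorem LA.good {κ c : ℝ} {E : Finset ℝ} {h : ℝ → ℂ} (hh : LA κ c E h) :
    Measurable h ∧ ∀ x, ‖h x‖ ≤ κ := by
  obtain ⟨v, g, hg, hv1, hv, e⟩ := hh
  obtain ⟨gm, gb, -⟩ := hg
  have hre := PV1.comp (E := E) hv (f := Complex.re) (Complex.reCLM.lipschitz.weaken (by simp))
  have him := PV1.comp (E := E) hv (f := Complex.im) (Complex.imCLM.lipschitz.weaken (by simp))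
  have mr : ∀ r : ℝ → ℝ, (∀ x, |r x| ≤ 1) → PV1 E r → Measurable r := by
    intro r h1 h2
    obtain ⟨p, q, pm, qm, -, -, e⟩ := real_pm h1 h2
    have : r = fun x => p x - q x := funext e
    rw [this]
    exact pm.meas.sub qm.meas
  have rm := mr _ (fun x => (Complex.abs_re_le_norm _).trans (hv1 x)) hre
  have im := mr _ (fun x => (Complex.abs_im_le_norm _).trans (hv1 x)) him
  have vm : Measurable v := by
    have e2 : v = fun x => (((v x).re : ℝ) : ℂ) + (((v x).im : ℝ) : ℂ) * Complex.I :=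
      funext fun x => (Complex.re_add_im (v x)).symm
    rw [e2]
    exact (Complex.measurable_ofReal.comp rm).add
      ((Complex.measurable_ofReal.comp im).mul measurable_const)
  refine ⟨?_, fun x => ?_⟩
  · have : h = fun x => v x * g x := funext e
    rw [this]
    exact vm.mul gm
  · rw [e x, norm_mul]
    calc ‖v x‖ * ‖g x‖ ≤ 1 * κ := mul_le_mul (hv1 x) (gb x) (norm_nonneg _) zero_le_one
      _ = κ := one_mul _

end Vale.Agent.P141.R2.H131
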