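import Vale.Agent.P141.R2.H131.Pieces

/-!
# P141: gluing `2^n` functions along consecutive intervals costs `B n`
-/

namespace Vale.Agent.P141.R2.H131

open MeasureTheory Set Filter Topology
open scoped ENNReal
open Vale.Agent.P141.H97 (bk bk_meas bk_int Nice)

/-- the form bound with the constant `A` -/
def QB (A ε R b₁ b₂ b₃ b : ℝ) (h : ℝ → ℂ) : Prop :=
  ∀ g₁ g₂ g₃ : ℝ → ℂ, Nice g₁ → Nice g₂ → Nice g₃ →
    ‖Q ε R b₁ b₂ b₃ b g₁ g₂ g₃ h‖ ≤ A * (N3 g₁ * N3 g₂ * N3 g₃)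

/-- a lower set of the line has one end point -/
theorem exists_end {S : Set ℝ} (hS : ∀ u v : ℝ, u ≤ v → v ∈ S → u ∈ S) :
    ∃ s : ℝ, ∀ u v : ℝ, |u - v| < |v - s| → (u ∈ S ↔ v ∈ S) := by
  by_cases h0 : S = ∅
  · exact ⟨0, fun u v _ => by simp [h0]⟩
  by_cases h1 : S = univ
  · exact ⟨0, fun u v _ => by simp [h1]⟩
  obtain ⟨x, hx⟩ := nonempty_iff_ne_empty.2 h0
  obtain ⟨z, hz⟩ := (ne_univ_iff_exists_notMem S).1 h1
  have hb : BddAbove S := ⟨z, fun y hy => le_of_not_gt fun h => hz (hS z y h.le hy)⟩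
  have below : ∀ y : ℝ, y < sSup S → y ∈ S := by
    intro y hy
    obtain ⟨w, hw, hyw⟩ := exists_lt_of_lt_csSup ⟨x, hx⟩ hy
    exact hS y w hyw.le hw
  have above : ∀ y : ℝ, sSup S < y → y ∉ S := fun y hy h => absurd (le_csSup hb h) (not_le.2 hy)
  refine ⟨sSup S, fun u v huv => ?_⟩
  rcases lt_trichotomy v (sSup S) with h | h | h
  · rw [abs_of_neg (by linarith : v - sSup S < 0)] at huv
    have := abs_lt.1 huv
    exact iff_of_true (below u (by linarith [this.2])) (below v h)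
  · rw [h, sub_self, abs_zero] at huv
    exact absurd huv (not_lt.2 (abs_nonneg _))
  · rw [abs_of_pos (by linarith : 0 < v - sSup S)] at huv
    have := abs_lt.1 huv
    exact iff_of_false (above u (by linarith [this.1])) (above v h)

/-- **gluing** -/
theorem parts {b₁ b₂ b₃ : ℝ} (h12 : b₁ ≠ b₂) (h13 : b₁ ≠ b₃) (h23 : b₂ ≠ b₃) (b : ℝ) :
    ∃ B : ℝ, 0 ≤ B ∧ ∀ ε R : ℝ, 0 < ε → ∀ (A : ℝ) (n : ℕ) (c : ℝ → ℕ) (P : ℕ → ℝ → ℂ),
      0 ≤ A → Monotone c → (∀ x, c x < 2 ^ n) → (∀ k, Measurable (P k)) →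
      (∀ k x, ‖P k x‖ ≤ 1) → (∀ k, QB A ε R b₁ b₂ b₃ b (P k)) →
      QB (A + B * n) ε R b₁ b₂ b₃ b (fun x => P (c x) x) := by
  obtain ⟨C₁, hC₁, H₁⟩ := cut_le h12 h13 h23 b
  refine ⟨2 * C₁, by positivity, fun ε R hε A n => ?_⟩
  induction n with
  | zero =>
    intro c P hA hc hlt hPm hP1 hPA
    have e : (fun x => P (c x) x) = P 0 := by
      funext x
      have := hlt x
      rw [pow_zero, Nat.lt_one_iff] at this
      rw [this]
    rw [e]
    simpa using hPA 0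
  | succ n ih =>
    intro c P hA hc hlt hPm hP1 hPA g₁ g₂ g₃ n₁ n₂ n₃
    set S : Set ℝ := {x | c x < 2 ^ n} with hS
    have hcm : Measurable c := hc.measurable
    have hSm : MeasurableSet S := measurableSet_lt hcm measurable_const
    obtain ⟨s, hs⟩ := exists_end (S := S) fun u v huv hv => lt_of_le_of_lt (hc huv) hv
    have hpos : 0 < 2 ^ n := by positivity
    set c₁ : ℝ → ℕ := fun x => min (c x) (2 ^ n - 1) with hc₁
    set c₂ : ℝ → ℕ := fun x => c x - 2 ^ n with hc₂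
    set P₂ : ℕ → ℝ → ℂ := fun k => P (2 ^ n + k) with hP₂
    have mc₁ : Monotone c₁ := fun x y hxy => min_le_min_right _ (hc hxy)
    have mc₂ : Monotone c₂ := fun x y hxy => Nat.sub_le_sub_right (hc hxy) _
    have joint : Measurable fun q : ℕ × ℝ => P q.1 q.2 :=
      measurable_from_prod_countable_right fun k => hPm k
    have m₁ : Measurable fun x => P (c₁ x) x :=
      joint.comp (mc₁.measurable.prodMk measurable_id)
    have m₂ : Measurable fun x => P₂ (c₂ x) x := by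
      have : Measurable fun q : ℕ × ℝ => P₂ q.1 q.2 :=
        measurable_from_prod_countable_right fun k => hPm (2 ^ n + k)
      exact this.comp (mc₂.measurable.prodMk measurable_id)
    have i₁ := ih c₁ P hA mc₁ (fun x => by
      have : c₁ x ≤ 2 ^ n - 1 := min_le_right _ _
      omega) hPm hP1 hPA
    have i₂ := ih c₂ P₂ hA mc₂ (fun x => by
      have := hlt x
      rw [pow_succ] at this
      simp only [hc₂]
      omega) (fun k => hPm _) (fun k => hP1 _) (fun k => hPA _)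
    have u₁ : ∀ x, ‖P (c₁ x) x‖ ≤ 1 := fun x => hP1 _ x
    have u₂ : ∀ x, ‖P₂ (c₂ x) x‖ ≤ 1 := fun x => hP1 _ x
    have e : Q ε R b₁ b₂ b₃ b g₁ g₂ g₃ (fun x => P (c x) x) =
        Q ε R b₁ b₂ b₃ b g₁ g₂ g₃ (S.indicator fun x => P (c₁ x) x) +
          Q ε R b₁ b₂ b₃ b g₁ g₂ g₃ (Sᶜ.indicator fun x => P₂ (c₂ x) x) := by
      unfold Q
      rw [← integral_add
        (Q_int hε n₁ n₂ n₃ (m₁.indicator hSm) (B := 1) fun x =>
          (norm_indicator_le_norm_self _ _).trans (u₁ x))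
        (Q_int hε n₁ n₂ n₃ (m₂.indicator hSm.compl) (B := 1) fun x =>
          (norm_indicator_le_norm_self _ _).trans (u₂ x))]
      refine integral_congr_ae (ae_of_all _ fun p => ?_)
      simp only
      rw [← mul_add]
      congr 1
      by_cases hy : p.1 - b * p.2 ∈ S
      · rw [indicator_of_mem hy, indicator_of_notMem (not_not.2 hy), add_zero]
        have : c₁ (p.1 - b * p.2) = c (p.1 - b * p.2) := by
          simp only [hc₁]
          rw [min_eq_left]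
          have : c (p.1 - b * p.2) < 2 ^ n := hy
          omega
        rw [this]
      · rw [indicator_of_notMem hy, indicator_of_mem (show _ ∈ Sᶜ from hy), zero_add]
        have : 2 ^ n + c₂ (p.1 - b * p.2) = c (p.1 - b * p.2) := by
          simp only [hc₂]
          have : ¬ c (p.1 - b * p.2) < 2 ^ n := hy
          omega
        simp only [hP₂]
        rw [this]
    have k₁ := H₁ s S hSm hs _ m₁ u₁ g₁ g₂ g₃ n₁ n₂ n₃ ε R hε
    have k₂ := H₁ s Sᶜ hSm.compl (side_compl hs) _ m₂ u₂ g₁ g₂ g₃ n₁ n₂ n₃ ε R hε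
    have j₁ := i₁ _ _ _ (nice_ind n₁ hSm) (nice_ind n₂ hSm) (nice_ind n₃ hSm)
    have j₂ := i₂ _ _ _ (nice_ind n₁ hSm.compl) (nice_ind n₂ hSm.compl)
      (nice_ind n₃ hSm.compl)
    have hsum := holder_sum (N3_nonneg (S.indicator g₁)) (N3_nonneg (S.indicator g₂))
      (N3_nonneg (S.indicator g₃)) (N3_nonneg (Sᶜ.indicator g₁)) (N3_nonneg (Sᶜ.indicator g₂))
      (N3_nonneg (Sᶜ.indicator g₃)) (N3_nonneg g₁) (N3_nonneg g₂) (N3_nonneg g₃)
      (N3_cube n₁ hSm) (N3_cube n₂ hSm) (N3_cube n₃ hSm)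
    set D := A + 2 * C₁ * n with hD
    have hD0 : 0 ≤ D := by positivity
    set P' := N3 g₁ * N3 g₂ * N3 g₃ with hP'
    have hP0 : 0 ≤ P' := mul_nonneg (mul_nonneg (N3_nonneg _) (N3_nonneg _)) (N3_nonneg _)
    rw [e]
    have t₁ := norm_sub_norm_le (Q ε R b₁ b₂ b₃ b g₁ g₂ g₃ (S.indicator fun x => P (c₁ x) x))
      (Q ε R b₁ b₂ b₃ b (S.indicator g₁) (S.indicator g₂) (S.indicator g₃)
        fun x => P (c₁ x) x)
    have t₂ := norm_sub_norm_le
      (Q ε R b₁ b₂ b₃ b g₁ g₂ g₃ (Sᶜ.indicator fun x => P₂ (c₂ x) x))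
      (Q ε R b₁ b₂ b₃ b (Sᶜ.indicator g₁) (Sᶜ.indicator g₂) (Sᶜ.indicator g₃)
        fun x => P₂ (c₂ x) x)
    have t₃ := norm_add_le (Q ε R b₁ b₂ b₃ b g₁ g₂ g₃ (S.indicator fun x => P (c₁ x) x))
      (Q ε R b₁ b₂ b₃ b g₁ g₂ g₃ (Sᶜ.indicator fun x => P₂ (c₂ x) x))
    have t₄ := mul_le_mul_of_nonneg_left hsum hD0
    have t₅ : (A + 2 * C₁ * ((n + 1 : ℕ) : ℝ)) * P' = D * P' + 2 * C₁ * P' := by
      rw [hD]; push_cast; ring
    rw [t₅]
    linarith

end Vale.Agent.P141.R2.H131
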