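import Vale.Agent.P141.R2.H131.Hardy
import Vale.Agent.P141.H115.Bht

/-!
# P141: one of the four functions is a quadratic phase on each of `2^n` pieces
-/

namespace Vale.Agent.P141.R2.H131

open MeasureTheory Set Filter Topology
open scoped ENNReal
open Vale.Agent.P141.H97 (bk bk_meas bk_int Nice)

/-- the `L^3` norm -/
noncomputable def N3 (g : ℝ → ℂ) : ℝ := (eLpNorm g 3 volume).toReal

theorem N3_nonneg (g : ℝ → ℂ) : 0 ≤ N3 g := ENNReal.toReal_nonneg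

theorem nice_ind {g : ℝ → ℂ} (h : Nice g) {S : Set ℝ} (hS : MeasurableSet S) :
    Nice (S.indicator g) := by
  obtain ⟨B, hB⟩ := h.bdd
  exact ⟨h.meas.indicator hS, ⟨B, fun x => (norm_indicator_le_norm_self _ _).trans (hB x)⟩,
    h.int.indicator hS⟩

theorem N3_cube {g : ℝ → ℂ} (h : Nice g) {S : Set ℝ} (hS : MeasurableSet S) :
    N3 (S.indicator g) ^ 3 + N3 (Sᶜ.indicator g) ^ 3 = N3 g ^ 3 := by
  have key : ∀ f : ℝ → ℂ, Nice f → N3 f ^ 3 = (∫⁻ u, ‖f u‖ₑ ^ (3 : ℝ)).toReal := by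
    intro f _
    unfold N3
    rw [eLpNorm_eq_lintegral_rpow_enorm_toReal (by norm_num) (by norm_num), ← ENNReal.toReal_pow,
      ← ENNReal.rpow_natCast, ← ENNReal.rpow_mul]
    norm_num
  have fin : ∀ f : ℝ → ℂ, Nice f → ∫⁻ u, ‖f u‖ₑ ^ (3 : ℝ) ≠ ∞ := by
    intro f hf
    have h1 := (hf.memLp (p := 3) (by norm_num) (by norm_num)).2
    rw [eLpNorm_eq_lintegral_rpow_enorm_toReal (by norm_num) (by norm_num)] at h1
    simp only [ENNReal.toReal_ofNat] at h1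
    intro h2
    rw [h2, ENNReal.top_rpow_of_pos (by norm_num)] at h1
    exact lt_irrefl _ h1
  have n1 := nice_ind h hS
  have n2 := nice_ind h hS.compl
  have e : ∀ T : Set ℝ, MeasurableSet T → ∫⁻ u, ‖T.indicator g u‖ₑ ^ (3 : ℝ) =
      ∫⁻ u in T, ‖g u‖ₑ ^ (3 : ℝ) := by
    intro T hT
    rw [← lintegral_indicator hT]
    refine lintegral_congr fun u => ?_
    by_cases hu : u ∈ T
    · rw [indicator_of_mem hu, indicator_of_mem hu]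
    · rw [indicator_of_notMem hu, indicator_of_notMem hu]
      simp
  rw [key _ n1, key _ n2, key _ h, ← ENNReal.toReal_add (fin _ n1) (fin _ n2), e S hS,
    e Sᶜ hS.compl, lintegral_add_compl _ hS]

theorem amgm (x y z : ℝ) (hx : 0 ≤ x) (hy : 0 ≤ y) (hz : 0 ≤ z) :
    3 * (x * y * z) ≤ x ^ 3 + y ^ 3 + z ^ 3 := by
  nlinarith [mul_nonneg (add_nonneg (add_nonneg hx hy) hz)
    (add_nonneg (add_nonneg (sq_nonneg (x - y)) (sq_nonneg (y - z))) (sq_nonneg (z - x)))]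

theorem holder_sum {a₁ a₂ a₃ b₁ b₂ b₃ c₁ c₂ c₃ : ℝ} (ha₁ : 0 ≤ a₁) (ha₂ : 0 ≤ a₂) (ha₃ : 0 ≤ a₃)
    (hb₁ : 0 ≤ b₁) (hb₂ : 0 ≤ b₂) (hb₃ : 0 ≤ b₃) (hc₁ : 0 ≤ c₁) (hc₂ : 0 ≤ c₂) (hc₃ : 0 ≤ c₃)
    (h₁ : a₁ ^ 3 + b₁ ^ 3 = c₁ ^ 3) (h₂ : a₂ ^ 3 + b₂ ^ 3 = c₂ ^ 3)
    (h₃ : a₃ ^ 3 + b₃ ^ 3 = c₃ ^ 3) : a₁ * a₂ * a₃ + b₁ * b₂ * b₃ ≤ c₁ * c₂ * c₃ := by
  have zero : ∀ a b c : ℝ, 0 ≤ a → 0 ≤ b → a ^ 3 + b ^ 3 = c ^ 3 → c = 0 → a = 0 ∧ b = 0 := by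
    intro a b c ha hb h hc
    subst hc
    have h1 : 0 ≤ a ^ 3 := by positivity
    have h2 : 0 ≤ b ^ 3 := by positivity
    constructor
    · have : a ^ 3 = 0 := by nlinarith
      exact pow_eq_zero_iff (by norm_num) |>.1 this
    · have : b ^ 3 = 0 := by nlinarith
      exact pow_eq_zero_iff (by norm_num) |>.1 this
  rcases eq_or_lt_of_le hc₁ with z₁ | p₁
  · obtain ⟨e, e'⟩ := zero a₁ b₁ c₁ ha₁ hb₁ h₁ z₁.symm
    rw [e, e', ← z₁]; simp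
  rcases eq_or_lt_of_le hc₂ with z₂ | p₂
  · obtain ⟨e, e'⟩ := zero a₂ b₂ c₂ ha₂ hb₂ h₂ z₂.symm
    rw [e, e', ← z₂]; simp
  rcases eq_or_lt_of_le hc₃ with z₃ | p₃
  · obtain ⟨e, e'⟩ := zero a₃ b₃ c₃ ha₃ hb₃ h₃ z₃.symm
    rw [e, e', ← z₃]; simp
  have A := amgm (a₁ / c₁) (a₂ / c₂) (a₃ / c₃) (by positivity) (by positivity) (by positivity)
  have B := amgm (b₁ / c₁) (b₂ / c₂) (b₃ / c₃) (by positivity) (by positivity) (by positivity)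
  have s₁ : (a₁ / c₁) ^ 3 + (b₁ / c₁) ^ 3 = 1 := by
    rw [div_pow, div_pow, ← add_div, h₁, div_self (by positivity)]
  have s₂ : (a₂ / c₂) ^ 3 + (b₂ / c₂) ^ 3 = 1 := by
    rw [div_pow, div_pow, ← add_div, h₂, div_self (by positivity)]
  have s₃ : (a₃ / c₃) ^ 3 + (b₃ / c₃) ^ 3 = 1 := by
    rw [div_pow, div_pow, ← add_div, h₃, div_self (by positivity)]
  have T : a₁ / c₁ * (a₂ / c₂) * (a₃ / c₃) + b₁ / c₁ * (b₂ / c₂) * (b₃ / c₃) ≤ 1 := by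
    linarith
  have E : a₁ * a₂ * a₃ + b₁ * b₂ * b₃ = (a₁ / c₁ * (a₂ / c₂) * (a₃ / c₃) +
      b₁ / c₁ * (b₂ / c₂) * (b₃ / c₃)) * (c₁ * c₂ * c₃) := by
    field_simp
  rw [E]
  exact mul_le_of_le_one_left (by positivity) T

/-- the four-linear form -/
noncomputable def Q (ε R b₁ b₂ b₃ b : ℝ) (g₁ g₂ g₃ h : ℝ → ℂ) : ℂ :=
  ∫ p : ℝ × ℝ, bk ε R b₁ b₂ b₃ g₁ g₂ g₃ p * h (p.1 - b * p.2)

variable {ε R b₁ b₂ b₃ b : ℝ} {g₁ g₂ g₃ h : ℝ → ℂ}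

theorem Q_int (hε : 0 < ε) (n₁ : Nice g₁) (n₂ : Nice g₂) (n₃ : Nice g₃) (hm : Measurable h)
    {B : ℝ} (hB : ∀ x, ‖h x‖ ≤ B) :
    Integrable (fun p : ℝ × ℝ => bk ε R b₁ b₂ b₃ g₁ g₂ g₃ p * h (p.1 - b * p.2)) := by
  refine (bk_int hε n₁ n₂ n₃).mul_bdd (c := B) ?_ (ae_of_all _ fun p => hB _)
  exact (hm.comp (by fun_prop)).aestronglyMeasurable

/-- the two sides of a cut agree away from the region -/
theorem cut_pt {κ s : ℝ} (hκ1 : κ * |b₁ - b| ≤ 1) (hκ2 : κ * |b₂ - b| ≤ 1)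
    (hκ3 : κ * |b₃ - b| ≤ 1) (hε : 0 < ε) (hh : ∀ x, ‖h x‖ ≤ 1) {S : Set ℝ}
    (hP : ∀ u v : ℝ, |u - v| < |v - s| → (u ∈ S ↔ v ∈ S)) (p : ℝ × ℝ) :
    ‖bk ε R b₁ b₂ b₃ g₁ g₂ g₃ p * S.indicator h (p.1 - b * p.2) -
        bk ε R b₁ b₂ b₃ (S.indicator g₁) (S.indicator g₂) (S.indicator g₃) p *
          h (p.1 - b * p.2)‖ₑ ≤
      (reg κ b s).indicator (fun p => ‖g₁ (p.1 - b₁ * p.2)‖ₑ *
          ‖g₂ (p.1 - b₂ * p.2)‖ₑ * ‖g₃ (p.1 - b₃ * p.2)‖ₑ * ‖p.2‖ₑ⁻¹) p := by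
  unfold bk
  by_cases hA : ε < |p.2| ∧ |p.2| < R
  swap
  · simp [hA]
  simp only [if_pos hA]
  have ht : 0 < |p.2| := hε.trans hA.1
  have ht0 : p.2 ≠ 0 := abs_pos.1 ht
  set y := p.1 - b * p.2 with hy
  by_cases hp : p ∈ reg κ b s
  · rw [indicator_of_mem hp]
    have full : ‖g₁ (p.1 - b₁ * p.2) * g₂ (p.1 - b₂ * p.2) * g₃ (p.1 - b₃ * p.2) / (p.2 : ℂ) *
        h y‖ₑ ≤ ‖g₁ (p.1 - b₁ * p.2)‖ₑ * ‖g₂ (p.1 - b₂ * p.2)‖ₑ * ‖g₃ (p.1 - b₃ * p.2)‖ₑ *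
          ‖p.2‖ₑ⁻¹ := by
      rw [enorm_mul, div_eq_mul_inv, enorm_mul, enorm_mul, enorm_mul, enorm_inv (by simpa using ht0)]
      have e1 : ‖(p.2 : ℂ)‖ₑ = ‖p.2‖ₑ := by
        rw [← ofReal_norm, ← ofReal_norm, Complex.norm_real]
      have e2 : ‖h y‖ₑ ≤ 1 := by
        rw [← ofReal_norm, ← ENNReal.ofReal_one]
        exact ENNReal.ofReal_le_ofReal (hh y)
      rw [e1]
      calc _ ≤ ‖g₁ (p.1 - b₁ * p.2)‖ₑ * ‖g₂ (p.1 - b₂ * p.2)‖ₑ * ‖g₃ (p.1 - b₃ * p.2)‖ₑ *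
          ‖p.2‖ₑ⁻¹ * 1 := by gcongr
        _ = _ := mul_one _
    by_cases m1 : p.1 - b₁ * p.2 ∈ S <;> by_cases m2 : p.1 - b₂ * p.2 ∈ S <;>
      by_cases m3 : p.1 - b₃ * p.2 ∈ S <;> by_cases m : y ∈ S <;>
      simp only [m1, m2, m3, m, indicator_of_mem, indicator_of_notMem, not_false_eq_true,
        mul_zero, zero_mul, zero_div, sub_zero, zero_sub, sub_self, enorm_zero, zero_le,
        enorm_neg] <;> exact full
  · rw [indicator_of_notMem hp]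
    have hlt : |p.2| < κ * |y - s| := not_le.1 hp
    have side : ∀ c : ℝ, κ * |c - b| ≤ 1 → (p.1 - c * p.2 ∈ S ↔ y ∈ S) := by
      intro c hc
      apply hP
      rw [hy, show p.1 - c * p.2 - (p.1 - b * p.2) = -((c - b) * p.2) by ring, abs_neg, abs_mul]
      have hys : 0 < |y - s| := by
        rcases lt_or_eq_of_le (abs_nonneg (y - s)) with h | h
        · exact h
        · rw [← h, mul_zero] at hlt
          linarith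
      rcases eq_or_lt_of_le (abs_nonneg (c - b)) with h | h
      · rw [← h, zero_mul]; exact hys
      · calc |c - b| * |p.2| < |c - b| * (κ * |y - s|) := by gcongr
          _ = (κ * |c - b|) * |y - s| := by ring
          _ ≤ 1 * |y - s| := by gcongr
          _ = |y - s| := one_mul _
    have i1 := side b₁ hκ1
    have i2 := side b₂ hκ2
    have i3 := side b₃ hκ3
    by_cases m : y ∈ S
    · simp only [i1.2 m, i2.2 m, i3.2 m, m, indicator_of_mem, sub_self, enorm_zero, le_refl]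
    · have m1 := mt i1.1 m
      simp only [m1, m, indicator_of_notMem, not_false_eq_true, mul_zero, zero_mul, zero_div,
        sub_self, enorm_zero, le_refl]

/-- the cut changes the form by a bounded amount -/
theorem cut_le (h12 : b₁ ≠ b₂) (h13 : b₁ ≠ b₃) (h23 : b₂ ≠ b₃) (b : ℝ) :
    ∃ C : ℝ, 0 ≤ C ∧ ∀ (s : ℝ) (S : Set ℝ), MeasurableSet S →
      (∀ u v : ℝ, |u - v| < |v - s| → (u ∈ S ↔ v ∈ S)) →
      ∀ h : ℝ → ℂ, Measurable h → (∀ x, ‖h x‖ ≤ 1) → ∀ g₁ g₂ g₃ : ℝ → ℂ,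
        Nice g₁ → Nice g₂ → Nice g₃ → ∀ ε R : ℝ, 0 < ε →
          ‖Q ε R b₁ b₂ b₃ b g₁ g₂ g₃ (S.indicator h) -
            Q ε R b₁ b₂ b₃ b (S.indicator g₁) (S.indicator g₂) (S.indicator g₃) h‖ ≤
          C * (N3 g₁ * N3 g₂ * N3 g₃) := by
  set κ : ℝ := (1 + |b₁ - b| + |b₂ - b| + |b₃ - b|)⁻¹ with hκ
  have hD : 0 < 1 + |b₁ - b| + |b₂ - b| + |b₃ - b| := by positivity
  have hκ0 : 0 < κ := by positivity
  have k : ∀ x : ℝ, x ≤ 1 + |b₁ - b| + |b₂ - b| + |b₃ - b| → κ * x ≤ 1 := by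
    intro x hx
    rw [hκ, inv_mul_le_iff₀ hD, mul_one]
    exact hx
  have a1 := abs_nonneg (b₁ - b)
  have a2 := abs_nonneg (b₂ - b)
  have a3 := abs_nonneg (b₃ - b)
  obtain ⟨C, hC, H⟩ := hardy h12 h13 h23 b hκ0
  refine ⟨C.toReal, ENNReal.toReal_nonneg, fun s S hS hP h hm hh g₁ g₂ g₃ n₁ n₂ n₃ ε R hε => ?_⟩
  have hm' : Measurable (S.indicator h) := hm.indicator hS
  have hh' : ∀ x, ‖S.indicator h x‖ ≤ 1 := fun x =>
    (norm_indicator_le_norm_self _ _).trans (hh x)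
  have I1 := Q_int (R := R) (b₁ := b₁) (b₂ := b₂) (b₃ := b₃) (b := b) hε n₁ n₂ n₃ hm' hh'
  have I2 := Q_int (R := R) (b₁ := b₁) (b₂ := b₂) (b₃ := b₃) (b := b) hε (nice_ind n₁ hS)
    (nice_ind n₂ hS) (nice_ind n₃ hS) hm hh
  unfold Q
  rw [← integral_sub I1 I2]
  have l₁ : eLpNorm g₁ 3 volume ≠ ∞ := (n₁.memLp (by norm_num) (by norm_num)).2.ne
  have l₂ : eLpNorm g₂ 3 volume ≠ ∞ := (n₂.memLp (by norm_num) (by norm_num)).2.ne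
  have l₃ : eLpNorm g₃ 3 volume ≠ ∞ := (n₃.memLp (by norm_num) (by norm_num)).2.ne
  have key := (enorm_integral_le_lintegral_enorm (μ := (volume : Measure (ℝ × ℝ)))
    (fun p : ℝ × ℝ => bk ε R b₁ b₂ b₃ g₁ g₂ g₃ p * S.indicator h (p.1 - b * p.2) -
      bk ε R b₁ b₂ b₃ (S.indicator g₁) (S.indicator g₂) (S.indicator g₃) p *
        h (p.1 - b * p.2))).trans
    ((lintegral_mono fun p => cut_pt (k _ (by linarith)) (k _ (by linarith)) (k _ (by linarith))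
      hε hh hP p).trans (H s g₁ g₂ g₃ n₁.meas n₂.meas n₃.meas))
  rw [← ofReal_norm] at key
  have hfin : C * (eLpNorm g₁ 3 volume * eLpNorm g₂ 3 volume * eLpNorm g₃ 3 volume) ≠ ∞ :=
    ENNReal.mul_ne_top hC.ne (ENNReal.mul_ne_top (ENNReal.mul_ne_top l₁ l₂) l₃)
  have key2 := (ENNReal.ofReal_le_iff_le_toReal hfin).1 key
  refine key2.trans (le_of_eq ?_)
  unfold N3
  rw [ENNReal.toReal_mul, ENNReal.toReal_mul, ENNReal.toReal_mul]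

/-- a quadratic phase times a constant -/
noncomputable def ph (c : ℂ) (α β : ℝ) (y : ℝ) : ℂ :=
  c * Complex.exp (Complex.I * ((α * y ^ 2 + β * y : ℝ) : ℂ))

/-- two functions glued at `s` -/
noncomputable def glue (s : ℝ) (h₁ h₂ : ℝ → ℂ) (y : ℝ) : ℂ := if y < s then h₁ y else h₂ y

/-- binary trees of depth `n` of cuts, with quadratic phases at the leaves -/
inductive PW : ℕ → (ℝ → ℂ) → Prop
  | leaf (c : ℂ) (α β : ℝ) (hc : ‖c‖ ≤ 1) : PW 0 (ph c α β)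
  | node {n : ℕ} (s : ℝ) {h₁ h₂ : ℝ → ℂ} (H₁ : PW n h₁) (H₂ : PW n h₂) : PW (n + 1) (glue s h₁ h₂)

theorem norm_ph (c : ℂ) (α β y : ℝ) : ‖ph c α β y‖ = ‖c‖ := by
  unfold ph
  rw [norm_mul, mul_comm Complex.I, Complex.norm_exp_ofReal_mul_I, mul_one]

theorem ph_meas (c : ℂ) (α β : ℝ) : Measurable (ph c α β) := by
  unfold ph
  fun_prop

theorem PW.good {n : ℕ} {h : ℝ → ℂ} (H : PW n h) : Measurable h ∧ ∀ x, ‖h x‖ ≤ 1 := by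
  induction H with
  | leaf c α β hc => exact ⟨ph_meas c α β, fun x => by rw [norm_ph]; exact hc⟩
  | node s H₁ H₂ i₁ i₂ =>
    refine ⟨Measurable.ite (measurableSet_lt measurable_id measurable_const) i₁.1 i₂.1,
      fun x => ?_⟩
    unfold glue
    split_ifs
    · exact i₁.2 x
    · exact i₂.2 x

/-- a quadratic phase in the fourth function is absorbed by the other three -/
theorem absorb (h12 : b₁ ≠ b₂) (h13 : b₁ ≠ b₃) (h23 : b₂ ≠ b₃) (b : ℝ) :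
    ∃ l₁ l₂ l₃ : ℝ, ∀ α β x t : ℝ, α * (x - b * t) ^ 2 + β * (x - b * t) =
      l₁ * (α * (x - b₁ * t) ^ 2 + β * (x - b₁ * t)) +
      l₂ * (α * (x - b₂ * t) ^ 2 + β * (x - b₂ * t)) +
      l₃ * (α * (x - b₃ * t) ^ 2 + β * (x - b₃ * t)) := by
  have a12 : b₁ - b₂ ≠ 0 := sub_ne_zero.2 h12
  have a13 : b₁ - b₃ ≠ 0 := sub_ne_zero.2 h13
  have a23 : b₂ - b₃ ≠ 0 := sub_ne_zero.2 h23
  have a21 : b₂ - b₁ ≠ 0 := sub_ne_zero.2 h12.symm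
  have a31 : b₃ - b₁ ≠ 0 := sub_ne_zero.2 h13.symm
  have a32 : b₃ - b₂ ≠ 0 := sub_ne_zero.2 h23.symm
  refine ⟨(b - b₂) * (b - b₃) / ((b₁ - b₂) * (b₁ - b₃)),
    (b - b₁) * (b - b₃) / ((b₂ - b₁) * (b₂ - b₃)),
    (b - b₁) * (b - b₂) / ((b₃ - b₁) * (b₃ - b₂)), fun α β x t => ?_⟩
  field_simp
  ring

/-- multiplication by a unimodular phase -/
noncomputable def mo (l α β : ℝ) (g : ℝ → ℂ) (y : ℝ) : ℂ :=
  g y * Complex.exp (Complex.I * ((l * (α * y ^ 2 + β * y) : ℝ) : ℂ))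

theorem mo_norm (l α β : ℝ) (g : ℝ → ℂ) (y : ℝ) : ‖mo l α β g y‖ = ‖g y‖ := by
  unfold mo
  rw [norm_mul, mul_comm Complex.I, Complex.norm_exp_ofReal_mul_I, mul_one]

theorem mo_nice (l α β : ℝ) {g : ℝ → ℂ} (n : Nice g) : Nice (mo l α β g) := by
  have hm : Measurable (mo l α β g) := by
    unfold mo
    exact n.meas.mul (by fun_prop)
  refine ⟨hm, ?_, ?_⟩
  · obtain ⟨B, hB⟩ := n.bdd
    exact ⟨B, fun x => by rw [mo_norm]; exact hB x⟩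
  · exact n.int.mono hm.aestronglyMeasurable (ae_of_all _ fun x => by rw [mo_norm])

theorem mo_N3 (l α β : ℝ) (g : ℝ → ℂ) : N3 (mo l α β g) = N3 g := by
  unfold N3
  rw [eLpNorm_congr_norm_ae (ae_of_all _ fun x => mo_norm l α β g x)]

theorem Q_leaf (h12 : b₁ ≠ b₂) (h13 : b₁ ≠ b₃) (h23 : b₂ ≠ b₃) (b : ℝ) :
    ∃ C : ℝ, 0 ≤ C ∧ ∀ (c : ℂ) (α β : ℝ), ‖c‖ ≤ 1 → ∀ g₁ g₂ g₃ : ℝ → ℂ,
      Nice g₁ → Nice g₂ → Nice g₃ → ∀ ε R : ℝ, 0 < ε → ε < R →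
        ‖Q ε R b₁ b₂ b₃ b g₁ g₂ g₃ (ph c α β)‖ ≤ C * (N3 g₁ * N3 g₂ * N3 g₃) := by
  obtain ⟨C, hC, H⟩ := H115.bht
  obtain ⟨l₁, l₂, l₃, hl⟩ := absorb h12 h13 h23 b
  refine ⟨C, hC, fun c α β hc g₁ g₂ g₃ n₁ n₂ n₃ ε R hε hR => ?_⟩
  have e : Q ε R b₁ b₂ b₃ b g₁ g₂ g₃ (ph c α β) =
      c * ∫ p, bk ε R b₁ b₂ b₃ (mo l₁ α β g₁) (mo l₂ α β g₂) (mo l₃ α β g₃) p := by
    unfold Q
    rw [← integral_const_mul]
    refine integral_congr_ae (ae_of_all _ fun p => ?_)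
    simp only [bk]
    split_ifs with hA
    · unfold ph mo
      rw [hl α β p.1 p.2]
      push_cast
      rw [mul_add, mul_add, Complex.exp_add, Complex.exp_add]
      ring
    · simp
  rw [e, norm_mul]
  have h1 := H b₁ b₂ b₃ _ _ _ (mo_nice l₁ α β n₁) (mo_nice l₂ α β n₂) (mo_nice l₃ α β n₃)
    ε R hε hR
  have m₁ := mo_N3 l₁ α β g₁
  have m₂ := mo_N3 l₂ α β g₂
  have m₃ := mo_N3 l₃ α β g₃
  unfold N3 at m₁ m₂ m₃ ⊢
  rw [m₁, m₂, m₃] at h1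
  calc ‖c‖ * ‖∫ p, bk ε R b₁ b₂ b₃ (mo l₁ α β g₁) (mo l₂ α β g₂) (mo l₃ α β g₃) p‖
      ≤ 1 * _ := mul_le_mul hc h1 (norm_nonneg _) zero_le_one
    _ = _ := one_mul _

theorem side_Iio (s u v : ℝ) (h : |u - v| < |v - s|) : u ∈ Iio s ↔ v ∈ Iio s := by
  simp only [mem_Iio]
  rcases le_or_gt s v with h1 | h1
  · rw [abs_of_nonneg (by linarith : 0 ≤ v - s)] at h
    have := abs_lt.1 h
    constructor <;> intro h2 <;> linarith [this.1, this.2]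
  · rw [abs_of_neg (by linarith : v - s < 0)] at h
    have := abs_lt.1 h
    constructor <;> intro h2 <;> linarith [this.1, this.2]

theorem side_compl {S : Set ℝ} {s : ℝ} (h : ∀ u v : ℝ, |u - v| < |v - s| → (u ∈ S ↔ v ∈ S)) :
    ∀ u v : ℝ, |u - v| < |v - s| → (u ∈ Sᶜ ↔ v ∈ Sᶜ) := fun u v huv =>
  not_congr (h u v huv)

/-- **the form with a function that is a quadratic phase on each of `2^n` pieces** -/
theorem Q_tree (h12 : b₁ ≠ b₂) (h13 : b₁ ≠ b₃) (h23 : b₂ ≠ b₃) (b : ℝ) :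
    ∃ C : ℝ, 0 ≤ C ∧ ∀ (n : ℕ) (h : ℝ → ℂ), PW n h → ∀ g₁ g₂ g₃ : ℝ → ℂ,
      Nice g₁ → Nice g₂ → Nice g₃ → ∀ ε R : ℝ, 0 < ε → ε < R →
        ‖Q ε R b₁ b₂ b₃ b g₁ g₂ g₃ h‖ ≤ C * (1 + n) * (N3 g₁ * N3 g₂ * N3 g₃) := by
  obtain ⟨C₀, hC₀, H₀⟩ := Q_leaf h12 h13 h23 b
  obtain ⟨C₁, hC₁, H₁⟩ := cut_le h12 h13 h23 b
  refine ⟨C₀ + 2 * C₁, by positivity, fun n h H => ?_⟩
  induction H with
  | leaf c α β hc =>
    intro g₁ g₂ g₃ n₁ n₂ n₃ ε R hε hR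
    refine (H₀ c α β hc g₁ g₂ g₃ n₁ n₂ n₃ ε R hε hR).trans ?_
    have := N3_nonneg g₁
    have := N3_nonneg g₂
    have := N3_nonneg g₃
    gcongr
    simp only [Nat.cast_zero, add_zero, mul_one]
    linarith
  | @node n s h₁ h₂ P₁ P₂ i₁ i₂ =>
    intro g₁ g₂ g₃ n₁ n₂ n₃ ε R hε hR
    obtain ⟨m₁, u₁⟩ := P₁.good
    obtain ⟨m₂, u₂⟩ := P₂.good
    set S : Set ℝ := Iio s with hS
    have hSm : MeasurableSet S := measurableSet_Iio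
    have e : Q ε R b₁ b₂ b₃ b g₁ g₂ g₃ (glue s h₁ h₂) =
        Q ε R b₁ b₂ b₃ b g₁ g₂ g₃ (S.indicator h₁) +
          Q ε R b₁ b₂ b₃ b g₁ g₂ g₃ (Sᶜ.indicator h₂) := by
      unfold Q
      rw [← integral_add
        (Q_int hε n₁ n₂ n₃ (m₁.indicator hSm) (B := 1) fun x =>
          (norm_indicator_le_norm_self _ _).trans (u₁ x))
        (Q_int hε n₁ n₂ n₃ (m₂.indicator hSm.compl) (B := 1) fun x =>
          (norm_indicator_le_norm_self _ _).trans (u₂ x))]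
      refine integral_congr_ae (ae_of_all _ fun p => ?_)
      simp only
      rw [← mul_add]
      congr 1
      unfold glue
      by_cases hy : p.1 - b * p.2 < s
      · have h1 : p.1 - b * p.2 ∈ S := hy
        rw [if_pos hy, indicator_of_mem h1, indicator_of_notMem (not_not.2 h1), add_zero]
      · have h1 : p.1 - b * p.2 ∉ S := hy
        rw [if_neg hy, indicator_of_notMem h1, indicator_of_mem (show _ ∈ Sᶜ from h1), zero_add]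
    have c₁ := H₁ s S hSm (side_Iio s) h₁ m₁ u₁ g₁ g₂ g₃ n₁ n₂ n₃ ε R hε
    have c₂ := H₁ s Sᶜ hSm.compl (side_compl (side_Iio s)) h₂ m₂ u₂ g₁ g₂ g₃ n₁ n₂ n₃ ε R hε
    have j₁ := i₁ _ _ _ (nice_ind n₁ hSm) (nice_ind n₂ hSm) (nice_ind n₃ hSm) ε R hε hR
    have j₂ := i₂ _ _ _ (nice_ind n₁ hSm.compl) (nice_ind n₂ hSm.compl)
      (nice_ind n₃ hSm.compl) ε R hε hR
    have hs := holder_sum (N3_nonneg (S.indicator g₁)) (N3_nonneg (S.indicator g₂))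
      (N3_nonneg (S.indicator g₃)) (N3_nonneg (Sᶜ.indicator g₁)) (N3_nonneg (Sᶜ.indicator g₂))
      (N3_nonneg (Sᶜ.indicator g₃)) (N3_nonneg g₁) (N3_nonneg g₂) (N3_nonneg g₃)
      (N3_cube n₁ hSm) (N3_cube n₂ hSm) (N3_cube n₃ hSm)
    set D := C₀ + 2 * C₁ with hD
    have hD0 : 0 ≤ D := by positivity
    set P := N3 g₁ * N3 g₂ * N3 g₃ with hP
    have hP0 : 0 ≤ P := mul_nonneg (mul_nonneg (N3_nonneg _) (N3_nonneg _)) (N3_nonneg _)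
    rw [e]
    calc ‖Q ε R b₁ b₂ b₃ b g₁ g₂ g₃ (S.indicator h₁) +
          Q ε R b₁ b₂ b₃ b g₁ g₂ g₃ (Sᶜ.indicator h₂)‖
        ≤ ‖Q ε R b₁ b₂ b₃ b g₁ g₂ g₃ (S.indicator h₁)‖ +
          ‖Q ε R b₁ b₂ b₃ b g₁ g₂ g₃ (Sᶜ.indicator h₂)‖ := norm_add_le _ _
      _ ≤ (‖Q ε R b₁ b₂ b₃ b (S.indicator g₁) (S.indicator g₂) (S.indicator g₃) h₁‖ + C₁ * P) +
          (‖Q ε R b₁ b₂ b₃ b (Sᶜ.indicator g₁) (Sᶜ.indicator g₂) (Sᶜ.indicator g₃) h₂‖ +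
            C₁ * P) := by
          gcongr
          · have := norm_sub_norm_le (Q ε R b₁ b₂ b₃ b g₁ g₂ g₃ (S.indicator h₁))
              (Q ε R b₁ b₂ b₃ b (S.indicator g₁) (S.indicator g₂) (S.indicator g₃) h₁)
            linarith
          · have := norm_sub_norm_le (Q ε R b₁ b₂ b₃ b g₁ g₂ g₃ (Sᶜ.indicator h₂))
              (Q ε R b₁ b₂ b₃ b (Sᶜ.indicator g₁) (Sᶜ.indicator g₂) (Sᶜ.indicator g₃) h₂)
            linarith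
      _ ≤ D * (1 + n) * (N3 (S.indicator g₁) * N3 (S.indicator g₂) * N3 (S.indicator g₃) +
          N3 (Sᶜ.indicator g₁) * N3 (Sᶜ.indicator g₂) * N3 (Sᶜ.indicator g₃)) +
          2 * C₁ * P := by linarith
      _ ≤ D * (1 + n) * P + D * P := by
          gcongr
          linarith
      _ = D * (1 + ((n + 1 : ℕ) : ℝ)) * P := by push_cast; ring

end Vale.Agent.P141.R2.H131
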