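import Vale.Agent.P141.R2.H131.Struct

/-!
# P141: the trilinear Hilbert transform with one piecewise structured argument
-/

namespace Vale.Agent.P141.R2.H131

open MeasureTheory Set Filter Topology
open scoped ENNReal SchwartzMap ContDiff
open Vale.Agent.P141.H97 (Nice TT FF uu TT_eq)
open Vale.Agent.P141.H115 (nice_schwartz)
open Vale.Agent.P141.R2.H152 (FormBd oper pairing TT_meas_D)

variable {d : ℕ} {φ : (Fin d → ℝ) → ℂ}

theorem trunc_TT (f₁ f₂ f₃ : ℝ → ℂ) (ε R : ℝ) :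
    truncTHT f₁ f₂ f₃ ε R = TT ε R 1 2 3 f₁ f₂ f₃ := by
  funext x
  rw [TT_eq]
  rfl

theorem slot_two (ε R α₁ α₂ α₃ : ℝ) (f₁ f₂ f₃ : ℝ → ℂ) :
    TT ε R α₁ α₂ α₃ f₁ f₂ f₃ = TT ε R α₂ α₁ α₃ f₂ f₁ f₃ := by
  funext x
  unfold TT H97.ph FF
  congr 1
  funext t
  ring

theorem slot_three (ε R α₁ α₂ α₃ : ℝ) (f₁ f₂ f₃ : ℝ → ℂ) :
    TT ε R α₁ α₂ α₃ f₁ f₂ f₃ = TT ε R α₃ α₁ α₂ f₃ f₁ f₂ := by
  funext x
  unfold TT H97.ph FF
  congr 1
  funext t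
  ring

/-- **the truncated operators** -/
theorem oper_pieces (h1 : ContDiff ℝ ∞ φ) (h2 : HasCompactSupport φ) {α₁ α₂ α₃ : ℝ}
    (n₁ : α₁ ≠ 0) (n₂ : α₂ ≠ 0) (n₃ : α₃ ≠ 0) (h12 : α₁ ≠ α₂) (h13 : α₁ ≠ α₃) (h23 : α₂ ≠ α₃) :
    ∃ C : ℝ, 0 ≤ C ∧ ∀ (K : ℕ) (h : ℝ → ℂ), 1 ≤ K → Pieces φ K h → ∀ ε R : ℝ, 0 < ε → ε < R →
      ∀ f g : ℝ → ℂ, Nice f → Nice g →
        eLpNorm (TT ε R α₁ α₂ α₃ h f g) (3 / 2) volume ≤
          ENNReal.ofReal (C * (1 + Real.log K)) * eLpNorm f 3 volume * eLpNorm g 3 volume := by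
  obtain ⟨M, hM0, HM⟩ := Pieces.good (φ := φ) h1 h2
  obtain ⟨C, hC, HC⟩ := Pieces.form (φ := φ) h1 h2 (b₁ := -α₁) (b₂ := α₂ - α₁) (b₃ := α₃ - α₁)
    (b := 0) (fun h => n₂ (by linarith)) (fun h => n₃ (by linarith)) (fun h => h23 (by linarith))
    (neg_ne_zero.2 n₁) (sub_ne_zero.2 h12.symm) (sub_ne_zero.2 h13.symm)
  refine ⟨C, hC, fun K h hK hh ε R hε hR f g nf ng => ?_⟩
  obtain ⟨mh, hhM⟩ := HM K h hh
  set A : ℝ := C * (1 + Real.log K) with hA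
  have hA0 : 0 ≤ A := by
    have := Real.log_natCast_nonneg K
    positivity
  set D : ℝ → ℂ := fun x => ((M⁻¹ : ℝ) : ℂ) * h x with hD
  have nM : ‖((M⁻¹ : ℝ) : ℂ)‖ = M⁻¹ := by
    rw [Complex.norm_real, Real.norm_of_nonneg (by positivity)]
  have mD : Measurable D := measurable_const.mul mh
  have D1 : ∀ x, ‖D x‖ ≤ 1 := fun x => by
    rw [hD]
    simp only
    rw [norm_mul, nM, inv_mul_le_iff₀ hM0, mul_one]
    exact hhM x
  have bD : FormBd D (M⁻¹ * A) ε R (-α₁) (α₂ - α₁) (α₃ - α₁) := by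
    rw [← QB_iff]
    have := QB_smul ((M⁻¹ : ℝ) : ℂ) (HC K h hK hh ε R hε hR)
    rw [nM] at this
    exact this
  have key := oper mD D1 (A := M⁻¹ * A) (by positivity) hε bD nf ng
  have e : TT ε R α₁ α₂ α₃ h f g = ((M : ℝ) : ℂ) • TT ε R α₁ α₂ α₃ D f g := by
    funext x
    rw [Pi.smul_apply, smul_eq_mul]
    unfold TT
    rw [← integral_const_mul]
    congr 1
    funext t
    unfold H97.ph FF
    rw [hD]
    simp only
    have hc : ((M : ℝ) : ℂ) * ((M⁻¹ : ℝ) : ℂ) = 1 := by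
      rw [← Complex.ofReal_mul, mul_inv_cancel₀ hM0.ne', Complex.ofReal_one]
    linear_combination (-(uu ε R t * (h (x - α₁ * t) * f (x - α₂ * t) * g (x - α₃ * t)))) * hc
  rw [e, eLpNorm_const_smul]
  have e2 : ‖((M : ℝ) : ℂ)‖ₑ = ENNReal.ofReal M := by
    rw [← ofReal_norm, Complex.norm_real, Real.norm_of_nonneg hM0.le]
  rw [e2]
  calc ENNReal.ofReal M * eLpNorm (TT ε R α₁ α₂ α₃ D f g) (3 / 2) volume
      ≤ ENNReal.ofReal M * (ENNReal.ofReal (M⁻¹ * A) * eLpNorm f 3 volume *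
        eLpNorm g 3 volume) := by gcongr
    _ = ENNReal.ofReal M * ENNReal.ofReal (M⁻¹ * A) * eLpNorm f 3 volume *
        eLpNorm g 3 volume := by ring
    _ = ENNReal.ofReal A * eLpNorm f 3 volume * eLpNorm g 3 volume := by
        rw [← ENNReal.ofReal_mul hM0.le, ← mul_assoc, mul_inv_cancel₀ hM0.ne', one_mul]

/-- **the structured function as a test function** -/
theorem test_pieces (h1 : ContDiff ℝ ∞ φ) (h2 : HasCompactSupport φ) {α₁ α₂ α₃ : ℝ}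
    (n₁ : α₁ ≠ 0) (n₂ : α₂ ≠ 0) (n₃ : α₃ ≠ 0) (h12 : α₁ ≠ α₂) (h13 : α₁ ≠ α₃) (h23 : α₂ ≠ α₃) :
    ∃ C : ℝ, 0 ≤ C ∧ ∀ (K : ℕ) (h : ℝ → ℂ), 1 ≤ K → Pieces φ K h → ∀ ε R : ℝ, 0 < ε → ε < R →
      ∀ f₁ f₂ f₃ : ℝ → ℂ, Nice f₁ → Nice f₂ → Nice f₃ →
        ‖∫ x, h x * TT ε R α₁ α₂ α₃ f₁ f₂ f₃ x‖ ≤ C * (1 + Real.log K) *
          ((eLpNorm f₁ 3 volume).toReal * (eLpNorm f₂ 3 volume).toReal *
            (eLpNorm f₃ 3 volume).toReal) := by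
  obtain ⟨M, hM0, HM⟩ := Pieces.good (φ := φ) h1 h2
  obtain ⟨C, hC, HC⟩ := Pieces.form (φ := φ) h1 h2 (b₁ := α₁) (b₂ := α₂) (b₃ := α₃)
    (b := 0) h12 h13 h23 n₁ n₂ n₃
  refine ⟨C, hC, fun K h hK hh ε R hε hR f₁ f₂ f₃ m₁ m₂ m₃ => ?_⟩
  obtain ⟨mh, hhM⟩ := HM K h hh
  set A : ℝ := C * (1 + Real.log K) with hA
  set D : ℝ → ℂ := fun x => ((M⁻¹ : ℝ) : ℂ) * h x with hD
  have nM : ‖((M⁻¹ : ℝ) : ℂ)‖ = M⁻¹ := by
    rw [Complex.norm_real, Real.norm_of_nonneg (by positivity)]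
  have mD : Measurable D := measurable_const.mul mh
  have D1 : ∀ x, ‖D x‖ ≤ 1 := fun x => by
    rw [hD]
    simp only
    rw [norm_mul, nM, inv_mul_le_iff₀ hM0, mul_one]
    exact hhM x
  have bD : FormBd D (M⁻¹ * A) ε R α₁ α₂ α₃ := by
    rw [← QB_iff]
    have := QB_smul ((M⁻¹ : ℝ) : ℂ) (HC K h hK hh ε R hε hR)
    rw [nM] at this
    exact this
  have key := pairing mD D1 hε bD m₁ m₂ m₃
  have e : ∫ x, D x * TT ε R α₁ α₂ α₃ f₁ f₂ f₃ x =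
      ((M⁻¹ : ℝ) : ℂ) * ∫ x, h x * TT ε R α₁ α₂ α₃ f₁ f₂ f₃ x := by
    rw [← integral_const_mul]
    congr 1
    funext x
    rw [hD]
    ring
  rw [e, norm_mul, nM, inv_mul_le_iff₀ hM0] at key
  refine key.trans (le_of_eq ?_)
  have hMM : M * M⁻¹ = 1 := mul_inv_cancel₀ hM0.ne'
  linear_combination (A * ((eLpNorm f₁ 3 volume).toReal * (eLpNorm f₂ 3 volume).toReal *
            (eLpNorm f₃ 3 volume).toReal)) * hMM

theorem int_three {F G H : ℝ → ℂ} (hF : Integrable F) (mG : Measurable G) (mH : Measurable H)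
    {B₁ B₂ : ℝ} (hG : ∀ t, ‖G t‖ ≤ B₁) (hH : ∀ t, ‖H t‖ ≤ B₂) :
    Integrable fun t => F t * G t * H t :=
  (hF.mul_bdd (c := B₁) mG.aestronglyMeasurable (ae_of_all _ hG)).mul_bdd (c := B₂)
    mH.aestronglyMeasurable (ae_of_all _ hH)

theorem int_slope (f : 𝓢(ℝ, ℂ)) {α : ℝ} (hα : α ≠ 0) (x : ℝ) :
    Integrable fun t : ℝ => f (x - α * t) := by
  have h1 : Integrable fun t : ℝ => f (x - t) := (nice_schwartz f).int.comp_sub_left x
  exact h1.comp_mul_left' hα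

/-- the limits exist almost everywhere -/
theorem limits (h1 : ContDiff ℝ ∞ φ) (h2 : HasCompactSupport φ) {K : ℕ} {h : ℝ → ℂ}
    (hh : Pieces φ K h) (f g : 𝓢(ℝ, ℂ)) :
    ∀ᵐ x : ℝ, Tendsto (fun q : ℝ × ℝ => truncTHT h f g q.1 q.2 x) (𝓝[>] (0 : ℝ) ×ˢ atTop)
        (𝓝 (THT h f g x)) ∧
      Tendsto (fun q : ℝ × ℝ => truncTHT f h g q.1 q.2 x) (𝓝[>] (0 : ℝ) ×ˢ atTop)
        (𝓝 (THT f h g x)) ∧
      Tendsto (fun q : ℝ × ℝ => truncTHT f g h q.1 q.2 x) (𝓝[>] (0 : ℝ) ×ˢ atTop)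
        (𝓝 (THT f g h x)) := by
  obtain ⟨M, hM0, HM⟩ := Pieces.good (φ := φ) h1 h2
  obtain ⟨mh, hhM⟩ := HM K h hh
  have nf := nice_schwartz f
  have ng := nice_schwartz g
  obtain ⟨Bf, hBf⟩ := nf.bdd
  obtain ⟨Bg, hBg⟩ := ng.bdd
  filter_upwards [hh.diff h1 h2] with x hx
  have df : DifferentiableAt ℝ (f : ℝ → ℂ) x := f.differentiableAt
  have dg : DifferentiableAt ℝ (g : ℝ → ℂ) x := g.differentiableAt
  have sl : ∀ a : ℝ, Measurable fun t : ℝ => x - a * t := fun a => by fun_prop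
  refine ⟨lim_exists mh nf.meas ng.meas ?_ hx df dg, lim_exists nf.meas mh ng.meas ?_ df hx dg,
    lim_exists nf.meas ng.meas mh ?_ df dg hx⟩
  · have := int_three (int_slope f two_ne_zero x) (mh.comp (sl 1)) (ng.meas.comp (sl 3))
      (fun t => hhM _) (fun t => hBg _)
    refine this.congr (ae_of_all _ fun t => ?_)
    unfold pr
    simp only [Function.comp_apply, one_mul]
    ring
  · have := int_three (int_slope f one_ne_zero x) (mh.comp (sl 2)) (ng.meas.comp (sl 3))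
      (fun t => hhM _) (fun t => hBg _)
    refine this.congr (ae_of_all _ fun t => ?_)
    unfold pr
    simp only [Function.comp_apply, one_mul]
  · have := int_three (int_slope f one_ne_zero x) (ng.meas.comp (sl 2)) (mh.comp (sl 3))
      (fun t => hBg _) (fun t => hhM _)
    refine this.congr (ae_of_all _ fun t => ?_)
    unfold pr
    simp only [Function.comp_apply, one_mul]

/-- **the trilinear Hilbert transform with one structured argument** -/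
theorem structured (φ : (Fin d → ℝ) → ℂ) (h1 : ContDiff ℝ ∞ φ) (h2 : HasCompactSupport φ) :
    ∃ C : ℝ, 0 ≤ C ∧ ∀ (K : ℕ) (h : ℝ → ℂ), 1 ≤ K → Pieces φ K h → ∀ f g : 𝓢(ℝ, ℂ),
      (∀ᵐ x : ℝ, Tendsto (fun q : ℝ × ℝ => truncTHT h f g q.1 q.2 x) (𝓝[>] (0 : ℝ) ×ˢ atTop)
        (𝓝 (THT h f g x)) ∧
        Tendsto (fun q : ℝ × ℝ => truncTHT f h g q.1 q.2 x) (𝓝[>] (0 : ℝ) ×ˢ atTop)
        (𝓝 (THT f h g x)) ∧
        Tendsto (fun q : ℝ × ℝ => truncTHT f g h q.1 q.2 x) (𝓝[>] (0 : ℝ) ×ˢ atTop)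
        (𝓝 (THT f g h x))) ∧
      (∀ F : ℝ → ℂ, (F = THT h f g ∨ F = THT f h g ∨ F = THT f g h ∨
          ∃ ε R : ℝ, 0 < ε ∧ ε < R ∧ (F = truncTHT h f g ε R ∨ F = truncTHT f h g ε R ∨
            F = truncTHT f g h ε R)) →
        eLpNorm F (3 / 2) volume ≤
          ENNReal.ofReal (C * (1 + Real.log K)) * eLpNorm f 3 volume * eLpNorm g 3 volume) ∧
      (∀ ε R : ℝ, 0 < ε → ε < R → ∀ k : 𝓢(ℝ, ℂ),
        ‖∫ x, h x * truncTHT f g k ε R x‖ ≤ C * (1 + Real.log K) *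
          ((eLpNorm f 3 volume).toReal * (eLpNorm g 3 volume).toReal *
            (eLpNorm k 3 volume).toReal)) := by
  obtain ⟨C₁, hC₁, H₁⟩ := oper_pieces (φ := φ) h1 h2 (α₁ := 1) (α₂ := 2) (α₃ := 3) (by norm_num)
    (by norm_num) (by norm_num) (by norm_num) (by norm_num) (by norm_num)
  obtain ⟨C₂, hC₂, H₂⟩ := oper_pieces (φ := φ) h1 h2 (α₁ := 2) (α₂ := 1) (α₃ := 3) (by norm_num)
    (by norm_num) (by norm_num) (by norm_num) (by norm_num) (by norm_num)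
  obtain ⟨C₃, hC₃, H₃⟩ := oper_pieces (φ := φ) h1 h2 (α₁ := 3) (α₂ := 1) (α₃ := 2) (by norm_num)
    (by norm_num) (by norm_num) (by norm_num) (by norm_num) (by norm_num)
  obtain ⟨C₄, hC₄, H₄⟩ := test_pieces (φ := φ) h1 h2 (α₁ := 1) (α₂ := 2) (α₃ := 3) (by norm_num)
    (by norm_num) (by norm_num) (by norm_num) (by norm_num) (by norm_num)
  refine ⟨C₁ + C₂ + C₃ + C₄, by positivity, fun K h hK hh f g => ?_⟩
  have nf := nice_schwartz f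
  have ng := nice_schwartz g
  have lim := limits h1 h2 hh f g
  obtain ⟨M, hM0, HM⟩ := Pieces.good (φ := φ) h1 h2
  obtain ⟨mh, -⟩ := HM K h hh
  have hl : 0 ≤ 1 + Real.log K := by
    have := Real.log_natCast_nonneg K
    positivity
  have up : ∀ C' : ℝ, C' ≤ C₁ + C₂ + C₃ + C₄ → ∀ X Y Z : ℝ≥0∞,
      Z ≤ ENNReal.ofReal (C' * (1 + Real.log K)) * X * Y →
      Z ≤ ENNReal.ofReal ((C₁ + C₂ + C₃ + C₄) * (1 + Real.log K)) * X * Y := by
    intro C' h' X Y Z hZ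
    refine hZ.trans ?_
    gcongr
  have t₁ : ∀ ε R : ℝ, 0 < ε → ε < R → eLpNorm (truncTHT h f g ε R) (3 / 2) volume ≤
      ENNReal.ofReal ((C₁ + C₂ + C₃ + C₄) * (1 + Real.log K)) * eLpNorm f 3 volume *
        eLpNorm g 3 volume := fun ε R hε hR => by
    rw [trunc_TT]
    exact up C₁ (by linarith) _ _ _ (H₁ K h hK hh ε R hε hR f g nf ng)
  have t₂ : ∀ ε R : ℝ, 0 < ε → ε < R → eLpNorm (truncTHT f h g ε R) (3 / 2) volume ≤
      ENNReal.ofReal ((C₁ + C₂ + C₃ + C₄) * (1 + Real.log K)) * eLpNorm f 3 volume *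
        eLpNorm g 3 volume := fun ε R hε hR => by
    rw [trunc_TT, slot_two]
    exact up C₂ (by linarith) _ _ _ (H₂ K h hK hh ε R hε hR f g nf ng)
  have t₃ : ∀ ε R : ℝ, 0 < ε → ε < R → eLpNorm (truncTHT f g h ε R) (3 / 2) volume ≤
      ENNReal.ofReal ((C₁ + C₂ + C₃ + C₄) * (1 + Real.log K)) * eLpNorm f 3 volume *
        eLpNorm g 3 volume := fun ε R hε hR => by
    rw [trunc_TT, slot_three]
    exact up C₃ (by linarith) _ _ _ (H₃ K h hK hh ε R hε hR f g nf ng)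
  refine ⟨lim, ?_, fun ε R hε hR k => ?_⟩
  · rintro F (rfl | rfl | rfl | ⟨ε, R, hε, hR, rfl | rfl | rfl⟩)
    · refine tht_le (fun ε R _ => ?_) (lim.mono fun x hx => hx.1) t₁
      rw [trunc_TT]
      exact (TT_meas_D mh nf ng).aestronglyMeasurable
    · refine tht_le (fun ε R _ => ?_) (lim.mono fun x hx => hx.2.1) t₂
      rw [trunc_TT, slot_two]
      exact (TT_meas_D mh nf ng).aestronglyMeasurable
    · refine tht_le (fun ε R _ => ?_) (lim.mono fun x hx => hx.2.2) t₃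
      rw [trunc_TT, slot_three]
      exact (TT_meas_D mh nf ng).aestronglyMeasurable
    · exact t₁ ε R hε hR
    · exact t₂ ε R hε hR
    · exact t₃ ε R hε hR
  · rw [trunc_TT]
    refine (H₄ K h hK hh ε R hε hR f g k nf ng (nice_schwartz k)).trans ?_
    gcongr
    linarith

end Vale.Agent.P141.R2.H131
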