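import Vale.Agent.P141.R2.H131.Bv
import Vale.Agent.P141.R2.H131.FormPieces
import Vale.Agent.P141.R2.H131.Pv
import Vale.Agent.P141.R2.H898.NilSlots

/-!
# P141: the form bound for piecewise products of a function of bounded variation and a nilsequence
-/

namespace Vale.Agent.P141.R2.H131

open MeasureTheory Set Filter Topology
open scoped ENNReal SchwartzMap ContDiff
open Vale.Agent.P141.H97 (bk bk_meas bk_int Nice)
open Vale.Agent.P141.R2.H860 (nil)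
open Vale.Agent.P141.R2.H898 (formB_nil nilFam contDiff_nil nil_bdd)

variable {d : ℕ}

/-- `h` consists of `K` pieces.  The line is cut into `K` consecutive intervals (of any lengths,
possibly empty), on which the monotone function `c` has the values `0, ..., K - 1`; on the `k`-th
interval `h` is the product of `u k`, bounded by one and of total variation at most one, and of
the two-step nilsequence `nil φ θ Q l q`. -/
def Pieces (φ : (Fin d → ℝ) → ℂ) (K : ℕ) (h : ℝ → ℂ) : Prop :=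
  ∃ (c : ℝ → ℕ) (u w : ℕ → ℝ → ℂ), Monotone c ∧ (∀ x, c x < K) ∧
    (∀ k x, ‖u k x‖ ≤ 1) ∧ (∀ k, eVariationOn (u k) univ ≤ 1) ∧
    (∀ k, ∃ (θ : Fin d → ℝ) (Q : Fin (d + 1) → Fin (d + 1) → ℝ) (l : Fin (d + 1) → ℝ) (q : ℝ),
      w k = nil φ θ Q l q) ∧
    ∀ x, h x = u (c x) x * w (c x) x

theorem glue_meas {c : ℝ → ℕ} (hc : Monotone c) {P : ℕ → ℝ → ℂ} (hP : ∀ k, Measurable (P k)) :
    Measurable fun x => P (c x) x := by
  have h1 : Measurable (fun q : ℕ × ℝ => P q.1 q.2) := measurable_from_prod_countable_right hP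
  exact h1.comp (hc.measurable.prodMk measurable_id)

theorem clog_le {K : ℕ} (hK : 1 ≤ K) : (Nat.clog 2 K : ℝ) ≤ 1 + 2 * Real.log K := by
  have hl : (1 : ℝ) / 2 ≤ Real.log 2 := by linarith [Real.log_two_gt_d9]
  have hK0 : 0 ≤ Real.log K := Real.log_natCast_nonneg K
  rcases Nat.lt_or_ge 1 K with h | h
  · have h1 : 2 ^ (Nat.clog 2 K).pred < K := Nat.pow_pred_clog_lt_self one_lt_two h
    have h2 : 0 < Nat.clog 2 K := Nat.clog_pos one_lt_two h
    have h3 : ((2 : ℝ) ^ (Nat.clog 2 K).pred) < K := by exact_mod_cast h1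
    have h4 := Real.log_lt_log (by positivity) h3
    rw [Real.log_pow] at h4
    have h5 : (((Nat.clog 2 K).pred : ℕ) : ℝ) = Nat.clog 2 K - 1 := by
      rw [Nat.pred_eq_sub_one, Nat.cast_sub h2, Nat.cast_one]
    rw [h5] at h4
    have h6 : (1 : ℝ) ≤ Nat.clog 2 K := by exact_mod_cast h2
    nlinarith
  · have : K = 1 := le_antisymm h hK
    subst this
    simp

theorem nil_meas {φ : (Fin d → ℝ) → ℂ} (h1 : ContDiff ℝ ∞ φ) (h2 : HasCompactSupport φ)
    (θ : Fin d → ℝ) (Q : Fin (d + 1) → Fin (d + 1) → ℝ) (l : Fin (d + 1) → ℝ) (q : ℝ) :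
    Measurable (nil φ θ Q l q) :=
  (contDiff_nil h1 h2 θ Q l q).continuous.measurable

/-- the structured functions are measurable and bounded -/
theorem Pieces.good {φ : (Fin d → ℝ) → ℂ} (h1 : ContDiff ℝ ∞ φ) (h2 : HasCompactSupport φ) :
    ∃ M : ℝ, 0 < M ∧ ∀ (K : ℕ) (h : ℝ → ℂ), Pieces φ K h → Measurable h ∧ ∀ x, ‖h x‖ ≤ M := by
  obtain ⟨B, hB⟩ := nil_bdd h1 h2
  refine ⟨max B 1, by positivity, fun K h hh => ?_⟩
  obtain ⟨c, u, w, hc, -, hu1, huv, hw, e⟩ := hh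
  constructor
  · have : h = fun x => (fun k x => u k x * w k x) (c x) x := funext e
    rw [this]
    refine glue_meas (P := fun k x => u k x * w k x) hc fun k => ?_
    obtain ⟨θ, Q, l, q, e⟩ := hw k
    rw [e]
    exact (bv_meas (hu1 k) (huv k)).mul (nil_meas h1 h2 θ Q l q)
  · intro x
    rw [e x, norm_mul]
    obtain ⟨θ, Q, l, q, e⟩ := hw (c x)
    rw [e]
    calc ‖u (c x) x‖ * ‖nil φ θ Q l q x‖ ≤ 1 * max B 1 :=
          mul_le_mul (hu1 _ _) ((hB θ Q l q x).trans (le_max_left _ _)) (norm_nonneg _) zero_le_one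
      _ = max B 1 := one_mul _

/-- **the form bound** -/
theorem Pieces.form {φ : (Fin d → ℝ) → ℂ} (h1 : ContDiff ℝ ∞ φ) (h2 : HasCompactSupport φ)
    {b₁ b₂ b₃ b : ℝ} (h12 : b₁ ≠ b₂) (h13 : b₁ ≠ b₃) (h23 : b₂ ≠ b₃) (n₁ : b₁ ≠ b) (n₂ : b₂ ≠ b)
    (n₃ : b₃ ≠ b) :
    ∃ C : ℝ, 0 ≤ C ∧ ∀ (K : ℕ) (h : ℝ → ℂ), 1 ≤ K → Pieces φ K h → ∀ ε R : ℝ, 0 < ε → ε < R →
      QB (C * (1 + Real.log K)) ε R b₁ b₂ b₃ b h := by
  obtain ⟨B, hB⟩ := nil_bdd h1 h2
  obtain ⟨C₀, hC₀, H₀⟩ := formB_nil h1 h2 n₁ n₂ n₃ h23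
  obtain ⟨C₁, hC₁, H₁⟩ := bv_base h12 h13 h23 b
  obtain ⟨C₂, hC₂, H₂⟩ := parts h12 h13 h23 b
  set M : ℝ := max B 1 with hM
  have hM0 : 0 < M := by positivity
  have hM1 : 1 ≤ M := le_max_right _ _
  set c₀ : ℂ := ((M⁻¹ : ℝ) : ℂ) with hc₀
  have nc : ‖c₀‖ = M⁻¹ := by
    rw [hc₀, Complex.norm_real, Real.norm_of_nonneg (by positivity)]
  have hMi : M⁻¹ ≤ 1 := inv_le_one_of_one_le₀ hM1
  refine ⟨M * (18 * (C₀ + C₁) + 2 * C₂), by positivity, fun K h hK hh ε R hε hR => ?_⟩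
  obtain ⟨c, u, w, hc, hcK, hu1, huv, hw, e⟩ := hh
  have gm : ∀ k, Measurable fun x => c₀ * w k x := fun k => by
    obtain ⟨θ, Q, l, q, e⟩ := hw k
    rw [e]
    exact measurable_const.mul (nil_meas h1 h2 θ Q l q)
  have g1 : ∀ k x, ‖c₀ * w k x‖ ≤ 1 := fun k x => by
    obtain ⟨θ, Q, l, q, e⟩ := hw k
    rw [e, norm_mul, nc, inv_mul_le_iff₀ hM0, mul_one]
    exact (hB θ Q l q x).trans (le_max_left _ _)
  have gB : ∀ k, QB C₀ ε R b₁ b₂ b₃ b fun x => c₀ * w k x := fun k => by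
    have hk : w k ∈ nilFam φ := by
      obtain ⟨θ, Q, l, q, e⟩ := hw k
      exact ⟨θ, Q, l, q, e⟩
    have : QB C₀ ε R b₁ b₂ b₃ b (w k) := fun g₁ g₂ g₃ m₁ m₂ m₃ =>
      H₀ _ hk g₁ g₂ g₃ m₁ m₂ m₃ ε R hε hR
    refine QB_mono ?_ (QB_smul c₀ this)
    rw [nc]
    exact mul_le_of_le_one_left hC₀ hMi
  have pB : ∀ k, QB (18 * (C₀ + C₁)) ε R b₁ b₂ b₃ b fun x => u k x * (c₀ * w k x) := fun k =>
    H₁ C₀ ε R hC₀ hε _ (gm k) (g1 k) (gB k) (u k) (hu1 k) (huv k)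
  have key := H₂ ε R hε (18 * (C₀ + C₁)) (Nat.clog 2 K) c (fun k x => u k x * (c₀ * w k x))
    (by positivity) hc (fun x => (hcK x).trans_le (Nat.le_pow_clog one_lt_two K))
    (fun k => (bv_meas (hu1 k) (huv k)).mul (gm k))
    (fun k x => by
      rw [norm_mul]
      exact mul_le_one₀ (hu1 k x) (norm_nonneg _) (g1 k x)) pB
  have e2 : h = fun x => ((M : ℝ) : ℂ) * (u (c x) x * (c₀ * w (c x) x)) := by
    funext x
    rw [e x, hc₀]
    have hMM : ((M : ℝ) : ℂ) * ((M⁻¹ : ℝ) : ℂ) = 1 := by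
      rw [← Complex.ofReal_mul, mul_inv_cancel₀ hM0.ne', Complex.ofReal_one]
    linear_combination (-(u (c x) x * w (c x) x)) * hMM
  rw [e2]
  refine QB_mono ?_ (QB_smul ((M : ℝ) : ℂ) key)
  rw [Complex.norm_real, Real.norm_of_nonneg hM0.le, mul_assoc]
  refine mul_le_mul_of_nonneg_left ?_ hM0.le
  have h3 := mul_le_mul_of_nonneg_left (clog_le hK) hC₂
  have h4 : 0 ≤ Real.log K := Real.log_natCast_nonneg K
  have h5 : 0 ≤ (C₀ + C₁) * Real.log K := by positivity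
  nlinarith

/-- a monotone function with integer values is locally constant outside a countable set -/
theorem loc_const {c : ℝ → ℕ} (hc : Monotone c) : ∀ᵐ x : ℝ, ∀ᶠ y in 𝓝 x, c y = c x := by
  have h1 : {x | ¬ContinuousAt c x}.Countable := hc.countable_not_continuousAt
  have h2 : ∀ᵐ x : ℝ, ContinuousAt c x := by
    rw [ae_iff]
    exact h1.measure_zero volume
  filter_upwards [h2] with x hx
  have : {c x} ∈ 𝓝 (c x) := (isOpen_discrete _).mem_nhds rfl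
  exact hx this

/-- the structured functions are differentiable almost everywhere -/
theorem Pieces.diff {φ : (Fin d → ℝ) → ℂ} (h1 : ContDiff ℝ ∞ φ) (h2 : HasCompactSupport φ)
    {K : ℕ} {h : ℝ → ℂ} (hh : Pieces φ K h) : ∀ᵐ x : ℝ, DifferentiableAt ℝ h x := by
  obtain ⟨c, u, w, hc, -, hu1, huv, hw, e⟩ := hh
  have d1 : ∀ᵐ x : ℝ, ∀ k, DifferentiableAt ℝ (u k) x := by
    rw [ae_all_iff]
    intro k
    have hb : BoundedVariationOn (u k) univ := ne_top_of_le_ne_top ENNReal.one_ne_top (huv k)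
    exact hb.locallyBoundedVariationOn.ae_differentiableAt
  filter_upwards [d1, loc_const hc] with x hx1 hx2
  have d2 : DifferentiableAt ℝ (w (c x)) x := by
    obtain ⟨θ, Q, l, q, e⟩ := hw (c x)
    rw [e]
    exact (contDiff_nil h1 h2 θ Q l q).contDiffAt.differentiableAt (by simp)
  refine ((hx1 (c x)).mul d2).congr_of_eventuallyEq ?_
  filter_upwards [hx2] with y hy
  rw [e y, hy]
  rfl

end Vale.Agent.P141.R2.H131
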